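import Vale.Agent.P256.H985.CaseC
import Vale.Agent.P256.H387.Rep
import Vale.Agent.P256.H858.Block
import Vale.Agent.P256.H858.KzP

/-! Case (C) at the level of the geometric context. -/

set_option linter.all false

namespace Vale.Agent.P256.H985

open Filter Topology Matrix Vale.Agent.P256 Vale.Agent.P256.H326 Vale.Agent.P256.H387

section Proj

variable {ι : Type} [Fintype ι] [DecidableEq ι]

/-- a matrix projecting onto the kernel of `D` -/
theorem exists_proj (D : Matrix ι ι ℝ) :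
    ∃ Q : Matrix ι ι ℝ, (∀ u, D *ᵥ (Q *ᵥ u) = 0) ∧ (∀ v, D *ᵥ v = 0 → Q *ᵥ v = v) := by
  obtain ⟨W, hW⟩ := Submodule.exists_isCompl (LinearMap.ker D.mulVecLin)
  refine ⟨LinearMap.toMatrix' ((LinearMap.ker D.mulVecLin).subtype ∘ₗ
    Submodule.linearProjOfIsCompl _ _ hW), fun u => ?_, fun v hv => ?_⟩
  · rw [LinearMap.toMatrix'_mulVec]
    exact (Submodule.linearProjOfIsCompl _ _ hW u).2
  · rw [LinearMap.toMatrix'_mulVec]
    have h1 := Submodule.linearProjOfIsCompl_apply_left hW ⟨v, hv⟩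
    show ((Submodule.linearProjOfIsCompl _ _ hW v : LinearMap.ker D.mulVecLin) : ι → ℝ) = v
    exact congrArg Subtype.val h1

theorem mulVec_sq_le (Q : Matrix ι ι ℝ) :
    ∃ C : ℝ, 0 < C ∧ ∀ u, (Q *ᵥ u) ⬝ᵥ (Q *ᵥ u) ≤ C * (u ⬝ᵥ u) := by
  refine ⟨1 + ∑ i, ∑ j, Q i j ^ 2, by positivity, fun u => ?_⟩
  have h1 : ∀ i, (Q *ᵥ u) i * (Q *ᵥ u) i ≤ (∑ j, Q i j ^ 2) * (u ⬝ᵥ u) := by
    intro i
    have h2 := Finset.sum_mul_sq_le_sq_mul_sq Finset.univ (fun j => Q i j) u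
    have h3 : u ⬝ᵥ u = ∑ j, u j ^ 2 := Finset.sum_congr rfl fun j _ => (pow_two _).symm
    rw [h3, ← pow_two]
    exact h2
  have h4 := dot_self_nonneg u
  calc (Q *ᵥ u) ⬝ᵥ (Q *ᵥ u) ≤ ∑ i, (∑ j, Q i j ^ 2) * (u ⬝ᵥ u) :=
        Finset.sum_le_sum fun i _ => h1 i
    _ = (∑ i, ∑ j, Q i j ^ 2) * (u ⬝ᵥ u) := by rw [Finset.sum_mul]
    _ ≤ _ := by linarith

theorem qf_conj (Q B : Matrix ι ι ℝ) (u : ι → ℝ) : qf (Qᵀ * B * Q) u = qf B (Q *ᵥ u) := by
  unfold qf
  rw [← Matrix.mulVec_mulVec, ← Matrix.mulVec_mulVec, Matrix.dotProduct_mulVec,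
    Matrix.vecMul_transpose]

theorem herm_conj (Q : Matrix ι ι ℝ) {B : Matrix ι ι ℝ} (hB : B.IsHermitian) :
    (Qᵀ * B * Q).IsHermitian := by
  rw [← Matrix.conjTranspose_eq_transpose_of_trivial]
  exact Matrix.isHermitian_conjTranspose_mul_mul Q hB

theorem qf_add (A B : Matrix ι ι ℝ) (u : ι → ℝ) : qf (A + B) u = qf A u + qf B u := by
  unfold qf
  rw [Matrix.add_mulVec, dotProduct_add]

theorem qf_csmul (c : ℝ) (A : Matrix ι ι ℝ) (u : ι → ℝ) : qf (c • A) u = c * qf A u := by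
  unfold qf
  rw [Matrix.smul_mulVec, dotProduct_smul, smul_eq_mul]

theorem qf_one (u : ι → ℝ) : qf (1 : Matrix ι ι ℝ) u = u ⬝ᵥ u := by
  unfold qf
  rw [Matrix.one_mulVec]

end Proj

section Block

variable {ε ν : Type} [Fintype ε] [Fintype ν] [DecidableEq ε] [DecidableEq ν]

theorem qf_block (A : Matrix (ε ⊕ ν) (ε ⊕ ν) ℝ) {u : ε ⊕ ν → ℝ} (hu : ∀ j, u (Sum.inr j) = 0) :
    qf A u = qf A.toBlocks₁₁ (u ∘ Sum.inl) := by
  unfold qf
  rw [dot_eq, dot_eq]
  simp only [Fintype.sum_sum_type, hu, mul_zero, zero_mul, Finset.sum_const_zero, add_zero]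
  rfl

theorem ker_block {D' : Matrix ν ν ℝ} (hD' : D'.PosDef) {u : ε ⊕ ν → ℝ}
    (hu : (Matrix.fromBlocks 0 0 0 D' : Matrix (ε ⊕ ν) (ε ⊕ ν) ℝ) *ᵥ u = 0) :
    ∀ j, u (Sum.inr j) = 0 := by
  have h1 : D' *ᵥ (u ∘ Sum.inr) = 0 := by
    funext j
    have h2 := congrFun hu (Sum.inr j)
    rw [Matrix.fromBlocks_mulVec] at h2
    simpa using h2
  have h3 : u ∘ Sum.inr = (0 : ν → ℝ) := by
    by_contra hne
    have h4 := hD'.dotProduct_mulVec_pos hne
    rw [h1, dotProduct_zero] at h4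
    exact lt_irrefl _ h4
  intro j
  exact congrFun h3 j

end Block

section Weak

variable {ε ν : Type} [Fintype ε] [Fintype ν] [DecidableEq ε] [DecidableEq ν]
variable {L X : Type} {F : Filter L} {V : Filter X} {S : L → X → ℝ} {K : Crd L X}

/-- case (C), the tangency hypothesis only for small `s` -/
theorem caseC' (R : KRepZ (ε ⊕ ν) F V S K) [F.NeBot] {D' : Matrix ν ν ℝ}
    (hD : R.D = Matrix.fromBlocks 0 0 0 D') (hD' : D'.PosDef) (star : Star F V S K)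
    (ha : ∀ᶠ l in F, 0 < K.a l) (hx : Tendsto (fun l => K.x0 l / K.a l) F (𝓝 0))
    (hA10 : R.ξ0 ⬝ᵥ (R.A1 *ᵥ R.ξ0) = 0)
    (hno : ∀ᶠ s in 𝓝[>] (0 : ℝ), ∃ v, qf (A0e R) v + s * qf (A1e R) v < 0)
    (hy : ∃ c : ℝ, ∀ᶠ x in V, K.y0 x ≤ c * K.b' x) : SosF F V S := by
  refine caseC R hD hD' star ha hx hA10 (fun s1 hs1 => ?_) hy
  by_contra hcon
  push Not at hcon
  obtain ⟨Kc, hS⟩ := side_of R hD ha hx (xi0_N R hD hD')
  have hpsd := A0_psd hS (A0e_herm R)
  obtain ⟨s, ⟨v, hv⟩, hs⟩ := (hno.and (Ioo_mem_nhdsGT hs1)).exists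
  have h1 := hcon v
  have h2 := psd_qf hpsd v
  have h3 : qf (A0e R) v + s * qf (A1e R) v = (1 - s / s1) * qf (A0e R) v +
      s / s1 * (qf (A0e R) v + s1 * qf (A1e R) v) := by
    field_simp
    ring
  have h4 : 0 ≤ 1 - s / s1 := by
    rw [sub_nonneg, div_le_one hs1]
    exact hs.2.le
  have h5 : 0 ≤ s / s1 := div_nonneg hs.1.le hs1.le
  have h6 := mul_nonneg h4 h2
  have h7 := mul_nonneg h5 h1
  rw [h3] at hv
  linarith

end Weak

section Ctx

variable {p : MvPolynomial (Fin 4) ℝ} {e z : Fin 4 → ℝ} {U V : Ultrafilter (Fin 4 → ℝ)}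
  {ζ : (Fin 4 → ℝ) →ₗ[ℝ] ℝ} {f w : Fin 4 → ℝ}

/-- points of the cone are tangent vectors at `z` modulo `z` -/
theorem Kz_pt (C : Ctx p e z U V ζ) (Fm : Fr e z ζ f w) {y : Fin 4 → ℝ} (hy : y ∈ hypCone p e)
    (h0 : 0 < co e z f w y 0) :
    (co e z f w y 1 / co e z f w y 0) • e + (co e z f w y 2 / co e z f w y 0) • f +
      (co e z f w y 3 / co e z f w y 0) • w ∈ Kz p e z := by
  have h1 := H858.TC_of_mem C.hyp C.hz.1 (K_smul C.hyp hy (inv_nonneg.2 h0.le)) (-1)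
  rw [H858.Kz_eq]
  have h2 : (co e z f w y 0)⁻¹ • y + (-1 : ℝ) • z =
      (co e z f w y 1 / co e z f w y 0) • e + (co e z f w y 2 / co e z f w y 0) • f +
      (co e z f w y 3 / co e z f w y 0) • w := by
    have h3 := co_spec Fm.li y
    clear h1
    generalize co e z f w y = c at h0 h3 ⊢
    rw [h3]
    simp only [smul_add, smul_smul, inv_mul_cancel₀ h0.ne', div_eq_inv_mul]
    module
  rwa [h2] at h1

/-- smooth boundary points near `z` are not on the plane of `z` and `e` -/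
theorem pos_V (C : Ctx p e z U V ζ) (Fm : Fr e z ζ f w) :
    ∀ᶠ x in (V : Filter (Fin 4 → ℝ)), 0 < |(crd e z f w).b' x| + |(crd e z f w).a' x| := by
  have h0 : ∀ᶠ y in (V : Filter (Fin 4 → ℝ)), 0 < co e z f w y 0 :=
    (tendsto_co0 Fm.li C.hV).eventually_const_lt one_pos
  filter_upwards [C.sV, h0] with x hx h0
  by_contra hcon
  push Not at hcon
  have h1 := abs_nonneg ((crd e z f w).b' x)
  have h2 := abs_nonneg ((crd e z f w).a' x)
  have h3 : co e z f w x 2 / co e z f w x 0 = 0 :=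
    abs_eq_zero.1 (show |(crd e z f w).b' x| = 0 by linarith)
  have h4 : co e z f w x 3 / co e z f w x 0 = 0 :=
    abs_eq_zero.1 (show |(crd e z f w).a' x| = 0 by linarith)
  rw [div_eq_zero_iff] at h3 h4
  have h3 := h3.resolve_right h0.ne'
  have h4 := h4.resolve_right h0.ne'
  have h5 : x = co e z f w x 0 • z + co e z f w x 1 • e := by
    conv_lhs => rw [co_spec Fm.li x]
    rw [h3, h4, zero_smul, zero_smul, add_zero, add_zero]
  obtain ⟨d, hd⟩ := C.hyp.1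
  rcases (C.co1_nonneg Fm hx.1.1).eq_or_lt with h6 | h6
  · rw [← h6, zero_smul, add_zero] at h5
    have h7 := hx.2
    rw [h5, dd_smul_left hd, C.hz0, mul_zero] at h7
    exact lt_irrefl _ h7
  · have h7 := K_add_open C.hyp (K_smul C.hyp C.hz.1 h0.le) ((e_inOpen C.hyp).smul C.hyp h6)
    rw [← h5] at h7
    have h8 := h7 0 le_rfl
    rw [zero_smul, add_zero] at h8
    exact h8 hx.1.2.1

/-- **Case (C) in a frame with `b > 0`.** -/
theorem frameC (C : Ctx p e z U V ζ) (Fm : Fr e z ζ f w)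
    (star : Star (U : Filter (Fin 4 → ℝ)) (V : Filter (Fin 4 → ℝ)) (sl p e) (crd e z f w))
    (ha : ∀ᶠ y in (U : Filter (Fin 4 → ℝ)), 0 < (crd e z f w).a y)
    (hb : ∀ᶠ y in (U : Filter (Fin 4 → ℝ)), 0 < (crd e z f w).b y)
    (hx : Tendsto (fun y => (crd e z f w).x0 y / (crd e z f w).a y)
      (U : Filter (Fin 4 → ℝ)) (𝓝 0))
    (ts : Tendsto (fun y => (crd e z f w).a y / (crd e z f w).b y)
      (U : Filter (Fin 4 → ℝ)) (𝓝 0))
    (hno : ∀ s : ℝ, 0 < s → f + s • w ∉ Kz p e z) :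
    SosF (U : Filter (Fin 4 → ℝ)) (V : Filter (Fin 4 → ℝ)) (sl p e) := by
  rcases C.transversal Fm with hy | h
  swap
  · exact h
  have hU0 : ∀ᶠ y in (U : Filter (Fin 4 → ℝ)), 0 < co e z f w y 0 :=
    (tendsto_co0 Fm.li C.hU).eventually_const_lt one_pos
  have hV0 : ∀ᶠ y in (V : Filter (Fin 4 → ℝ)), 0 < co e z f w y 0 :=
    (tendsto_co0 Fm.li C.hV).eventually_const_lt one_pos
  obtain ⟨d, B, D, G1, H, DH, P, -⟩ := H858.exists_pen_f C.hyp C.irr Fm
  obtain ⟨Q, hQ1, hQ2⟩ := exists_proj D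
  obtain ⟨c, hc, hQ3⟩ := mulVec_sq_le Q
  have q0 := qf_conj Q B
  have q1 := qf_conj Q G1
  have hH1 := herm_conj Q P.sym1
  have hH0 := herm_conj Q P.symB
  set A0 : Matrix (Fin d ⊕ Fin d) (Fin d ⊕ Fin d) ℝ := Qᵀ * B * Q with hA0
  set A1 : Matrix (Fin d ⊕ Fin d) (Fin d ⊕ Fin d) ℝ := Qᵀ * G1 * Q with hA1
  have hform : ∀ (x0 b a : ℝ) (u : Fin d ⊕ Fin d → ℝ),
      u ⬝ᵥ ((x0 • (1 : Matrix (Fin d ⊕ Fin d) (Fin d ⊕ Fin d) ℝ) + b • B + a • G1) *ᵥ u) =
        x0 * (u ⬝ᵥ u) + b * qf B u + a * qf G1 u := by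
    intro x0 b a u
    show qf (x0 • (1 : Matrix (Fin d ⊕ Fin d) (Fin d ⊕ Fin d) ℝ) + b • B + a • G1) u = _
    rw [qf_add, qf_add, qf_csmul, qf_csmul, qf_csmul, qf_one]
  have hK : ∀ x0 b a : ℝ, 0 ≤ x0 → x0 • e + b • f + a • w ∈ Kz p e z →
      ∀ u, 0 ≤ c * x0 * (u ⬝ᵥ u) + b * qf A0 u + a * qf A1 u := by
    intro x0 b a hx0 hmem u
    have h1 := (H858.mem_Kz_f P C.hz.1 x0 b a).1 hmem (Q *ᵥ u) (hQ1 u)
    rw [hform, ← q0, ← q1] at h1
    have h2 := mul_le_mul_of_nonneg_left (hQ3 u) hx0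
    have h3 : c * x0 * (u ⬝ᵥ u) = x0 * (c * (u ⬝ᵥ u)) := by ring
    rw [h3]
    linarith
  have hUK : ∀ᶠ y in (U : Filter (Fin 4 → ℝ)), ∀ u, 0 ≤ c * (crd e z f w).x0 y * (u ⬝ᵥ u) +
      (crd e z f w).b y * qf A0 u + (crd e z f w).a y * qf A1 u := by
    filter_upwards [C.sU, hU0, C.x0_nonneg Fm] with y hy h0 h1
    exact hK _ _ _ h1 (Kz_pt C Fm hy.1.1 h0)
  have hVK : ∀ᶠ x in (V : Filter (Fin 4 → ℝ)), ∀ u, 0 ≤ c * (crd e z f w).y0 x * (u ⬝ᵥ u) +
      (crd e z f w).b' x * qf A0 u + (crd e z f w).a' x * qf A1 u := by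
    filter_upwards [C.sV, hV0, C.y0_nonneg Fm] with y hy h0 h1
    exact hK _ _ _ h1 (Kz_pt C Fm hy.1.1 h0)
  have r1 : ∀ᶠ y in (U : Filter (Fin 4 → ℝ)), ∀ u,
      0 ≤ c * ((crd e z f w).x0 y / (crd e z f w).b y) * (u ⬝ᵥ u) + qf A0 u +
        (crd e z f w).a y / (crd e z f w).b y * qf A1 u := by
    filter_upwards [hUK, hb] with y h1 h2 u
    have h3 := div_nonneg (h1 u) h2.le
    have h4 : (c * (crd e z f w).x0 y * (u ⬝ᵥ u) + (crd e z f w).b y * qf A0 u +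
        (crd e z f w).a y * qf A1 u) / (crd e z f w).b y =
        c * ((crd e z f w).x0 y / (crd e z f w).b y) * (u ⬝ᵥ u) + qf A0 u +
        (crd e z f w).a y / (crd e z f w).b y * qf A1 u := by
      field_simp
    rwa [h4] at h3
  have hxb : Tendsto (fun y => c * ((crd e z f w).x0 y / (crd e z f w).b y))
      (U : Filter (Fin 4 → ℝ)) (𝓝 0) := by
    have h1 := (hx.mul ts).const_mul c
    rw [mul_zero, mul_zero] at h1
    refine h1.congr' ?_
    filter_upwards [ha, hb] with y h2 h3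
    field_simp
  have hsp : ∀ᶠ y in (U : Filter (Fin 4 → ℝ)), 0 < (crd e z f w).a y / (crd e z f w).b y := by
    filter_upwards [ha, hb] with y h2 h3 using div_pos h2 h3
  have hpsd : A0.PosSemidef := by
    refine Matrix.PosSemidef.of_dotProduct_mulVec_nonneg hH0 fun u => ?_
    rw [star_trivial]
    have h1 := ((hxb.mul_const (u ⬝ᵥ u)).add_const (qf A0 u)).add (ts.mul_const (qf A1 u))
    have h2 := ge_of_tendsto h1 (r1.mono fun y h => h u)
    rw [zero_mul, zero_mul, zero_add, add_zero] at h2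
    exact h2
  have hW : ∀ v, A0 *ᵥ v = 0 → 0 ≤ qf A1 v := by
    intro v hv
    refine c1 hsp ?_ r1 hv
    have h1 := hx.const_mul c
    rw [mul_zero] at h1
    refine h1.congr' ?_
    filter_upwards [ha, hb] with y h2 h3
    field_simp
  have hno' : ∀ s : ℝ, 0 < s → ∃ v, qf A0 v + s * qf A1 v < 0 := by
    intro s hs
    have h1 := hno s hs
    have h2 : f + s • w = (0 : ℝ) • e + (1 : ℝ) • f + s • w := by module
    rw [h2, H858.mem_Kz_f P C.hz.1] at h1
    push Not at h1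
    obtain ⟨u, hu, h3⟩ := h1
    refine ⟨u, ?_⟩
    rw [hform] at h3
    rw [q0, q1, hQ2 u hu]
    linarith
  obtain ⟨v, hv, hv1, hne⟩ := c2 hpsd hH1 hW hno'
  have hyc : Tendsto (fun x => c * (crd e z f w).y0 x /
      (|(crd e z f w).b' x| + |(crd e z f w).a' x|)) (V : Filter (Fin 4 → ℝ)) (𝓝 0) := by
    have h1 := hy.const_mul c
    rw [mul_zero] at h1
    exact h1.congr fun x => (mul_div_assoc _ _ _).symm
  obtain ⟨hb', ts', hyb⟩ := c5 (V := V) hpsd hH1 hW hv hv1 hne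
    (y0 := fun x => c * (crd e z f w).y0 x) (h := (crd e z f w).b') (a := (crd e z f w).a')
    hVK (pos_V C Fm) hyc
  obtain ⟨m1, m2, D', B0, B1, H', DH', hD', P', hH'⟩ :=
    H858.exists_pen_z C.hyp C.irr C.hz.1 Fm
  have aff : ∀ s, ∀ u v : Fin m1 ⊕ Fin m2 → ℝ,
      (Matrix.fromBlocks 0 0 0 D' : Matrix (Fin m1 ⊕ Fin m2) (Fin m1 ⊕ Fin m2) ℝ) *ᵥ u = 0 →
      (Matrix.fromBlocks 0 0 0 D' : Matrix (Fin m1 ⊕ Fin m2) (Fin m1 ⊕ Fin m2) ℝ) *ᵥ v = 0 →
      u ⬝ᵥ (H' s *ᵥ v) = 0 := by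
    intro s u v hu hv
    have h1 := ker_block hD' hu
    have h2 := ker_block hD' hv
    rw [dot_eq]
    simp only [Fintype.sum_sum_type, h1, h2, mul_zero, zero_mul, Finset.sum_const_zero, add_zero]
    refine Finset.sum_eq_zero fun i _ => Finset.sum_eq_zero fun j _ => ?_
    have h3 : H' s (Sum.inl i) (Sum.inl j) = 0 := congrFun (congrFun (hH' s) i) j
    rw [h3, zero_mul, zero_mul]
  obtain ⟨R, hRD, hR0, hR1, -, -, -, -, hA10⟩ := exists_krepZ C Fm P' aff hb hb' ts ts'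
  refine caseC' R hRD hD' star ha hx (by rw [hR1]; exact hA10) ?_ ?_
  · have h1 := (H858.mem_Kz_z P' C.hz.1).filter_mono (nhdsWithin_le_nhds (s := Set.Ioi (0 : ℝ)))
    filter_upwards [h1, self_mem_nhdsWithin] with s h2 hs
    have h3 := hno s hs
    have h4 : f + s • w = (0 : ℝ) • e + (1 : ℝ) • (f + s • w) := by module
    rw [h4, h2] at h3
    push Not at h3
    obtain ⟨u, hu, h5⟩ := h3
    have h6 : u ⬝ᵥ (((0 : ℝ) • (1 : Matrix (Fin m1 ⊕ Fin m2) (Fin m1 ⊕ Fin m2) ℝ) +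
        (1 : ℝ) • Gs B0 B1 H' s) *ᵥ u) = qf B0 u + s * qf B1 u := by
      show qf ((0 : ℝ) • (1 : Matrix (Fin m1 ⊕ Fin m2) (Fin m1 ⊕ Fin m2) ℝ) +
        (1 : ℝ) • (B0 + s • B1 + s ^ 2 • H' s)) u = _
      rw [qf_add, qf_csmul, qf_csmul, qf_add, qf_add, qf_csmul, qf_csmul]
      have h7 : qf (H' s) u = 0 := aff s u u hu hu
      rw [h7]
      ring
    rw [h6, qf_block B0 (ker_block hD' hu), qf_block B1 (ker_block hD' hu)] at h5
    refine ⟨u ∘ Sum.inl, ?_⟩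
    rw [A0e, A1e, hR0, hR1]
    exact h5
  · refine ⟨c⁻¹, ?_⟩
    filter_upwards [hyb.eventually_lt_const one_pos, hb'] with x h1 h2
    rw [div_lt_one h2] at h1
    rw [inv_mul_eq_div, le_div_iff₀ hc, mul_comm]
    exact h1.le

/-- the opposite frame -/
theorem Fr_neg (Fm : Fr e z ζ f w) : Fr e z ζ (-f) w := by
  refine ⟨?_, by rw [map_neg, Fm.ζf, neg_zero], Fm.ζw⟩
  rw [Fintype.linearIndependent_iff]
  intro g hg
  have h1 := Fintype.linearIndependent_iff.1 Fm.li ![g 0, g 1, -g 2, g 3] (by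
    rw [← hg]
    simp only [Fin.sum_univ_four]
    show g 0 • z + g 1 • e + (-g 2) • f + g 3 • w = g 0 • z + g 1 • e + g 2 • (-f) + g 3 • w
    module)
  intro i
  fin_cases i
  · exact h1 0
  · exact h1 1
  · have h2 : -g 2 = 0 := h1 2
    exact neg_eq_zero.1 h2
  · exact h1 3

theorem co_neg (Fm : Fr e z ζ f w) (y : Fin 4 → ℝ) : co e z (-f) w y =
    ![co e z f w y 0, co e z f w y 1, -co e z f w y 2, co e z f w y 3] := by
  refine co_unique (Fr_neg Fm).li ?_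
  show y = co e z f w y 0 • z + co e z f w y 1 • e + (-co e z f w y 2) • (-f) +
    co e z f w y 3 • w
  conv_lhs => rw [co_spec Fm.li y]
  module

/-- **Case (C)**: no tangent vector `b₁ f + a₁ w` with `a₁ > 0`. -/
theorem goalC (C : Ctx p e z U V ζ) (Fm : Fr e z ζ f w)
    (star : Star (U : Filter (Fin 4 → ℝ)) (V : Filter (Fin 4 → ℝ)) (sl p e) (crd e z f w))
    (ha : ∀ᶠ y in (U : Filter (Fin 4 → ℝ)), 0 < (crd e z f w).a y)
    (hx : Tendsto (fun y => (crd e z f w).x0 y / (crd e z f w).a y)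
      (U : Filter (Fin 4 → ℝ)) (𝓝 0))
    (hno : ∀ b1 a1 : ℝ, 0 < a1 → b1 • f + a1 • w ∉ Kz p e z) :
    SosF (U : Filter (Fin 4 → ℝ)) (V : Filter (Fin 4 → ℝ)) (sl p e) := by
  have hU0 : ∀ᶠ y in (U : Filter (Fin 4 → ℝ)), 0 < co e z f w y 0 :=
    (tendsto_co0 Fm.li C.hU).eventually_const_lt one_pos
  obtain ⟨d, B, D, G1, H, DH, P, -⟩ := H858.exists_pen_f C.hyp C.irr Fm
  have hpos : ∀ᶠ y in (U : Filter (Fin 4 → ℝ)),
      0 < |(crd e z f w).b y| + |(crd e z f w).a y| := by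
    filter_upwards [ha] with y h1
    have h2 := abs_nonneg ((crd e z f w).b y)
    have h3 := abs_pos.2 h1.ne'
    linarith
  obtain ⟨bb, -, hbb⟩ := H326.exists_tendsto U (a := fun y => (crd e z f w).b y /
      (|(crd e z f w).b y| + |(crd e z f w).a y|)) (c := 1) (by
    filter_upwards [hpos] with y h1
    rw [abs_div, abs_of_pos h1, div_le_one h1]
    linarith [abs_nonneg ((crd e z f w).a y)])
  obtain ⟨aa, -, haa⟩ := H326.exists_tendsto U (a := fun y => (crd e z f w).a y /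
      (|(crd e z f w).b y| + |(crd e z f w).a y|)) (c := 1) (by
    filter_upwards [hpos] with y h1
    rw [abs_div, abs_of_pos h1, div_le_one h1]
    linarith [abs_nonneg ((crd e z f w).b y)])
  have hmem : bb • f + aa • w ∈ Kz p e z := by
    have h1 : bb • f + aa • w = (0 : ℝ) • e + bb • f + aa • w := by module
    rw [h1, H858.mem_Kz_f P C.hz.1]
    intro u hu
    have hform : ∀ (x0 b a : ℝ),
        u ⬝ᵥ ((x0 • (1 : Matrix (Fin d ⊕ Fin d) (Fin d ⊕ Fin d) ℝ) + b • B + a • G1) *ᵥ u) =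
          x0 * (u ⬝ᵥ u) + b * qf B u + a * qf G1 u := by
      intro x0 b a
      show qf (x0 • (1 : Matrix (Fin d ⊕ Fin d) (Fin d ⊕ Fin d) ℝ) + b • B + a • G1) u = _
      rw [qf_add, qf_add, qf_csmul, qf_csmul, qf_csmul, qf_one]
    rw [hform]
    have h2 := (((C.x0_small Fm).mul_const (u ⬝ᵥ u)).add (hbb.mul_const (qf B u))).add
      (haa.mul_const (qf G1 u))
    refine ge_of_tendsto h2 ?_
    filter_upwards [C.sU, hU0, hpos] with y hy h0 h3
    have h4 := (H858.mem_Kz_f P C.hz.1 _ _ _).1 (Kz_pt C Fm hy.1.1 h0) u hu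
    rw [hform] at h4
    have h5 := div_nonneg h4 h3.le
    refine h5.trans (le_of_eq ?_)
    show ((crd e z f w).x0 y * (u ⬝ᵥ u) + (crd e z f w).b y * qf B u +
      (crd e z f w).a y * qf G1 u) / (|(crd e z f w).b y| + |(crd e z f w).a y|) = _
    ring
  have haa0 : 0 ≤ aa := by
    refine ge_of_tendsto haa ?_
    filter_upwards [ha, hpos] with y h1 h2 using div_nonneg h1.le h2.le
  have haa1 : aa = 0 := by
    rcases haa0.eq_or_lt with h | h
    · exact h.symm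
    · exact absurd hmem (hno bb aa h)
  have hsum : |bb| + |aa| = 1 := by
    have h1 := hbb.abs.add haa.abs
    refine tendsto_nhds_unique h1 (tendsto_const_nhds.congr' ?_)
    filter_upwards [hpos] with y h2
    rw [abs_div, abs_div, abs_of_pos h2, ← add_div, div_self h2.ne']
  rw [haa1, abs_zero, add_zero] at hsum
  have hbb0 : bb ≠ 0 := by
    intro h; rw [h, abs_zero] at hsum; exact zero_ne_one hsum
  have ts : Tendsto (fun y => (crd e z f w).a y / (crd e z f w).b y)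
      (U : Filter (Fin 4 → ℝ)) (𝓝 0) := by
    have h1 := haa.div hbb hbb0
    rw [haa1, zero_div] at h1
    refine h1.congr' ?_
    filter_upwards [hpos] with y h2
    exact div_div_div_cancel_right₀ h2.ne' _ _
  rcases lt_or_gt_of_ne hbb0 with hneg | hpos'
  · -- the opposite frame
    have hb : ∀ᶠ y in (U : Filter (Fin 4 → ℝ)), (crd e z f w).b y < 0 := by
      filter_upwards [hbb.eventually_lt_const hneg, hpos] with y h1 h2
      by_contra h3
      push Not at h3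
      exact absurd h1 (not_lt.2 (div_nonneg h3 h2.le))
    have e0 : ∀ y, co e z (-f) w y 0 = co e z f w y 0 := fun y => by rw [co_neg Fm]; rfl
    have e1 : ∀ y, co e z (-f) w y 1 = co e z f w y 1 := fun y => by rw [co_neg Fm]; rfl
    have e2 : ∀ y, co e z (-f) w y 2 = -co e z f w y 2 := fun y => by rw [co_neg Fm]; rfl
    have e3 : ∀ y, co e z (-f) w y 3 = co e z f w y 3 := fun y => by rw [co_neg Fm]; rfl
    have kx : (crd e z (-f) w).x0 = (crd e z f w).x0 := by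
      funext y; show co e z (-f) w y 1 / co e z (-f) w y 0 = _; rw [e0, e1]; rfl
    have ka : (crd e z (-f) w).a = (crd e z f w).a := by
      funext y; show co e z (-f) w y 3 / co e z (-f) w y 0 = _; rw [e0, e3]; rfl
    have kb : ∀ y, (crd e z (-f) w).b y = -(crd e z f w).b y := by
      intro y; show co e z (-f) w y 2 / co e z (-f) w y 0 = _; rw [e0, e2, neg_div]; rfl
    have kx' : (crd e z (-f) w).y0 = (crd e z f w).y0 := kx
    have ka' : (crd e z (-f) w).a' = (crd e z f w).a' := ka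
    have kb' : ∀ y, (crd e z (-f) w).b' y = -(crd e z f w).b' y := kb
    refine frameC C (Fr_neg Fm) ?_ (by rw [ka]; exact ha) ?_ (by rw [kx, ka]; exact hx) ?_ ?_
    · obtain ⟨c, hc, h1⟩ := star
      refine ⟨c, hc, fun δ hδ => (h1 δ hδ).congr' fun l x => ?_⟩
      unfold Crd.t Crd.Z Crd.α
      rw [kx, kx', ka, ka', kb, kb']
      ring
    · filter_upwards [hb] with y h1
      rw [kb]
      linarith
    · have h1 := ts.neg
      rw [neg_zero] at h1
      refine h1.congr fun y => ?_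
      rw [ka, kb, div_neg]
    · intro s hs h1
      refine hno (-1) s hs ?_
      rwa [neg_one_smul]
  · have hb : ∀ᶠ y in (U : Filter (Fin 4 → ℝ)), 0 < (crd e z f w).b y := by
      filter_upwards [hbb.eventually_const_lt hpos', hpos] with y h1 h2
      by_contra h3
      push Not at h3
      exact absurd h1 (not_lt.2 (div_nonpos_of_nonpos_of_nonneg h3 h2.le))
    refine frameC C Fm star ha hb hx ts fun s hs h1 => ?_
    refine hno 1 s hs ?_
    rwa [one_smul]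

end Ctx

end Vale.Agent.P256.H985
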