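import Vale.Agent.P256.H985.CaseIII
import Vale.Agent.P256.H387.Iface
import Vale.Agent.P256.H201.Dom

/-! Block form of `KRepZ (ε ⊕ ν)` with `D = diag(0, D')`; the one-sided data `Side`; the kernel
calculus of the entries of `G`. -/

set_option linter.all false

namespace Vale.Agent.P256.H985

open Filter Topology Matrix Vale.Agent.P256 Vale.Agent.P256.H326 Vale.Agent.P256.H387

variable {ε ν : Type} [Fintype ε] [Fintype ν] [DecidableEq ε] [DecidableEq ν]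
variable {L X : Type} {F : Filter L} {V : Filter X} {S : L → X → ℝ} {K : Crd L X}

section Blocks

variable (R : KRepZ (ε ⊕ ν) F V S K)

/-- the matrix `G(s)` -/
noncomputable def GG (s : ℝ) : Matrix (ε ⊕ ν) (ε ⊕ ν) ℝ := Gs R.A0 R.A1 R.H s

theorem GG_apply (s : ℝ) (i j : ε ⊕ ν) :
    GG R s i j = R.A0 i j + s * R.A1 i j + s ^ 2 * R.H s i j := by
  simp [GG, Gs]

theorem GG_herm (s : ℝ) : (GG R s).IsHermitian := by
  have h1 : ∀ (c : ℝ) {A : Matrix (ε ⊕ ν) (ε ⊕ ν) ℝ}, A.IsHermitian → (c • A).IsHermitian := by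
    intro c A hA
    unfold Matrix.IsHermitian at hA ⊢
    rw [Matrix.conjTranspose_smul, hA, star_trivial]
  exact ((R.sym0.add (h1 s R.sym1)).add (h1 _ (R.symH s)))

theorem GG_swap (s : ℝ) (i j : ε ⊕ ν) : GG R s i j = GG R s j i := by
  have := congrFun (congrFun (GG_herm R s) j) i
  simpa using this

variable {R} {D' : Matrix ν ν ℝ}

theorem H_EE (hD : R.D = Matrix.fromBlocks 0 0 0 D') (s : ℝ) (i j : ε) :
    R.H s (Sum.inl i) (Sum.inl j) = 0 := by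
  have h1 : ∀ i : ε, R.D *ᵥ (Pi.single (Sum.inl i) 1 : ε ⊕ ν → ℝ) = 0 := by
    intro i
    rw [hD]
    funext k
    rw [Matrix.mulVec_single_one]
    rcases k with k | k <;> simp
  have h2 := R.aff s _ _ (h1 i) (h1 j)
  simpa using h2

variable (R) in
/-- the NE block of `G(s)` -/
noncomputable def CC (s : ℝ) : Matrix ν ε ℝ := (GG R s).toBlocks₂₁

variable (R) in
/-- the NN block of `G(s)` -/
noncomputable def NN (s : ℝ) : Matrix ν ν ℝ := (GG R s).toBlocks₂₂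

variable (R) in
/-- the EE block of `A₀` -/
noncomputable def A0e : Matrix ε ε ℝ := R.A0.toBlocks₁₁

variable (R) in
/-- the EE block of `A₁` -/
noncomputable def A1e : Matrix ε ε ℝ := R.A1.toBlocks₁₁

theorem Pn_blocks (hD : R.D = Matrix.fromBlocks 0 0 0 D') (x0 h s : ℝ) :
    Pn R.D R.A0 R.A1 R.H x0 1 h s =
      Matrix.fromBlocks (x0 • (1 : Matrix ε ε ℝ) + h • (A0e R + s • A1e R)) (h • (CC R s)ᵀ)
        (h • CC R s) (x0 • (1 : Matrix ν ν ℝ) + D' + h • NN R s) := by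
  have hP : ∀ i j, Pn R.D R.A0 R.A1 R.H x0 1 h s i j =
      x0 * (1 : Matrix (ε ⊕ ν) (ε ⊕ ν) ℝ) i j + R.D i j + h * GG R s i j := by
    intro i j
    simp [Pn, GG]
  ext (i | i) (j | j)
  · rw [hP, hD, Matrix.fromBlocks_apply₁₁, Matrix.fromBlocks_apply₁₁, GG_apply, H_EE hD]
    simp [A0e, A1e, Matrix.one_apply, Matrix.toBlocks₁₁]
    ring
  · rw [hP, hD, Matrix.fromBlocks_apply₁₂, Matrix.fromBlocks_apply₁₂, GG_swap]
    simp [CC, Matrix.one_apply, Matrix.toBlocks₂₁]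
  · rw [hP, hD, Matrix.fromBlocks_apply₂₁, Matrix.fromBlocks_apply₂₁]
    simp [CC, Matrix.one_apply, Matrix.toBlocks₂₁]
  · rw [hP, hD, Matrix.fromBlocks_apply₂₂, Matrix.fromBlocks_apply₂₂]
    simp [NN, Matrix.one_apply, Matrix.toBlocks₂₂]

theorem Pn_mulVec (hD : R.D = Matrix.fromBlocks 0 0 0 D') (x0 h s : ℝ) (w : ε ⊕ ν → ℝ) :
    Pn R.D R.A0 R.A1 R.H x0 1 h s *ᵥ w = Sum.elim
      (x0 • (w ∘ Sum.inl) + h • (A0e R *ᵥ (w ∘ Sum.inl) + s • (A1e R *ᵥ (w ∘ Sum.inl)) +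
        (CC R s)ᵀ *ᵥ (w ∘ Sum.inr)))
      (x0 • (w ∘ Sum.inr) + D' *ᵥ (w ∘ Sum.inr) + h • (CC R s *ᵥ (w ∘ Sum.inl) +
        NN R s *ᵥ (w ∘ Sum.inr))) := by
  rw [Pn_blocks hD, Matrix.fromBlocks_mulVec]
  congr 1
  · simp only [Matrix.add_mulVec, Matrix.smul_mulVec, Matrix.one_mulVec, smul_add]
    abel
  · simp only [Matrix.add_mulVec, Matrix.smul_mulVec, Matrix.one_mulVec, smul_add]
    abel

theorem Pn_form (hD : R.D = Matrix.fromBlocks 0 0 0 D') (x0 h s : ℝ) (u : ε → ℝ) (w : ν → ℝ) :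
    (Sum.elim u w) ⬝ᵥ (Pn R.D R.A0 R.A1 R.H x0 1 h s *ᵥ (Sum.elim u w)) =
      x0 * (u ⬝ᵥ u + w ⬝ᵥ w) + qf D' w +
      h * (qf (A0e R) u + s * qf (A1e R) u + 2 * (w ⬝ᵥ (CC R s *ᵥ u)) + qf (NN R s) w) := by
  rw [Pn_mulVec hD]
  have e1 : (Sum.elim u w) ∘ (Sum.inl : ε → ε ⊕ ν) = u := rfl
  have e2 : (Sum.elim u w) ∘ (Sum.inr : ν → ε ⊕ ν) = w := rfl
  rw [e1, e2]
  have e3 : ∀ (a a' : ε → ℝ) (b b' : ν → ℝ), (Sum.elim a b) ⬝ᵥ (Sum.elim a' b') =
      a ⬝ᵥ a' + b ⬝ᵥ b' := by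
    intro a a' b b'
    simp [dotProduct, Fintype.sum_sum_type]
  rw [e3]
  have e4 : u ⬝ᵥ ((CC R s)ᵀ *ᵥ w) = w ⬝ᵥ (CC R s *ᵥ u) := by
    rw [Matrix.mulVec_transpose, dotProduct_comm, ← Matrix.dotProduct_mulVec]
  simp only [dotProduct_add, dotProduct_smul, smul_eq_mul, e4, qf]
  ring

/-! ### the one-sided data -/

theorem H_bound (R : KRepZ (ε ⊕ ν) F V S K) : ∃ Kc : ℝ, 0 ≤ Kc ∧
    ∀ᶠ s in 𝓝 (0 : ℝ), |s| ≤ 1 ∧ ∀ i j, |R.H s i j| ≤ Kc := by
  have h1 : ∀ i j, ∀ᶠ s in 𝓝 (0 : ℝ), |R.H s i j| < |R.H 0 i j| + 1 := by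
    intro i j
    have := (R.nk i j).cont.tendsto.abs
    exact this.eventually_lt_const (lt_add_one _)
  refine ⟨∑ i, ∑ j, (|R.H 0 i j| + 1), by positivity, ?_⟩
  have h2 : ∀ᶠ s in 𝓝 (0 : ℝ), ∀ i j, |R.H s i j| < |R.H 0 i j| + 1 :=
    eventually_all.2 fun i => eventually_all.2 fun j => h1 i j
  have h3 : ∀ᶠ s in 𝓝 (0 : ℝ), |s| ≤ 1 := by
    have : Tendsto (fun s : ℝ => |s|) (𝓝 0) (𝓝 |0|) := continuous_abs.tendsto 0
    rw [abs_zero] at this
    exact (this.eventually_lt_const one_pos).mono fun _ h => h.le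
  filter_upwards [h2, h3] with s hs hs3
  refine ⟨hs3, fun i j => (hs i j).le.trans ?_⟩
  calc |R.H 0 i j| + 1 ≤ ∑ j, (|R.H 0 i j| + 1) := Finset.single_le_sum
        (f := fun j => |R.H 0 i j| + 1) (fun _ _ => by positivity) (Finset.mem_univ j)
    _ ≤ _ := Finset.single_le_sum (f := fun i => ∑ j, (|R.H 0 i j| + 1))
        (fun _ _ => by positivity) (Finset.mem_univ i)

/-- the quotient coordinate -/
noncomputable def sq (K : Crd L X) (l : L) : ℝ := K.a l / K.b l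

theorem side_of (R : KRepZ (ε ⊕ ν) F V S K) (hD : R.D = Matrix.fromBlocks 0 0 0 D')
    (ha : ∀ᶠ l in F, 0 < K.a l) (hx : Tendsto (fun l => K.x0 l / K.a l) F (𝓝 0))
    (hN0 : ∀ j, R.ξ0 (Sum.inr j) = 0) :
    ∃ Kc : ℝ, Side F (A0e R) (A1e R) D' (CC R 0) Kc K.x0 K.b (sq K)
      (fun l => CC R (sq K l)) (fun l => NN R (sq K l)) (fun l => R.ξ l ∘ Sum.inl)
      (fun l => R.ξ l ∘ Sum.inr) (R.ξ0 ∘ Sum.inl) := by
  obtain ⟨Kh, hKh, hKb⟩ := H_bound R
  set K1 : ℝ := ∑ i, ∑ j, |R.A0 i j| with hK1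
  set K2 : ℝ := ∑ i, ∑ j, |R.A1 i j| with hK2
  have b1 : ∀ i j, |R.A0 i j| ≤ K1 := fun i j =>
    (Finset.single_le_sum (f := fun j => |R.A0 i j|) (fun _ _ => abs_nonneg _)
      (Finset.mem_univ j)).trans (Finset.single_le_sum (f := fun i => ∑ j, |R.A0 i j|)
        (fun _ _ => Finset.sum_nonneg fun _ _ => abs_nonneg _) (Finset.mem_univ i))
  have b2 : ∀ i j, |R.A1 i j| ≤ K2 := fun i j =>
    (Finset.single_le_sum (f := fun j => |R.A1 i j|) (fun _ _ => abs_nonneg _)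
      (Finset.mem_univ j)).trans (Finset.single_le_sum (f := fun i => ∑ j, |R.A1 i j|)
        (fun _ _ => Finset.sum_nonneg fun _ _ => abs_nonneg _) (Finset.mem_univ i))
  have hK1n : 0 ≤ K1 := by positivity
  have hK2n : 0 ≤ K2 := by positivity
  have hs0 : ∀ᶠ l in F, 0 < sq K l := by
    filter_upwards [ha, R.b_pos] with l h1 h2 using div_pos h1 h2
  refine ⟨K1 + K2 + Kh, R.b_pos, R.tb, hs0, R.ts, ?_, by positivity, ?_, ?_, ?_, ?_, ?_, ?_, ?_⟩
  · refine hx.congr' ?_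
    filter_upwards [R.b_pos] with l h1
    unfold sq
    rw [mul_div_cancel₀ _ h1.ne']
  · filter_upwards [R.ts.eventually hKb, hs0] with l h1 h2 i j
    have e1 : CC R (sq K l) i j - CC R 0 i j =
        sq K l * (R.A1 (Sum.inr i) (Sum.inl j) +
          sq K l * R.H (sq K l) (Sum.inr i) (Sum.inl j)) := by
      show GG R (sq K l) (Sum.inr i) (Sum.inl j) - GG R 0 (Sum.inr i) (Sum.inl j) = _
      rw [GG_apply, GG_apply]; ring
    rw [e1, abs_mul, abs_of_pos h2, mul_comm]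
    refine mul_le_mul_of_nonneg_right ?_ h2.le
    have h3 : |sq K l| ≤ 1 := h1.1
    calc |R.A1 (Sum.inr i) (Sum.inl j) + sq K l * R.H (sq K l) (Sum.inr i) (Sum.inl j)| ≤
          |R.A1 (Sum.inr i) (Sum.inl j)| + |sq K l * R.H (sq K l) (Sum.inr i) (Sum.inl j)| :=
          abs_add_le _ _
      _ ≤ K2 + 1 * Kh := by
          refine add_le_add (b2 _ _) ?_
          rw [abs_mul]
          exact mul_le_mul h3 (h1.2 _ _) (abs_nonneg _) zero_le_one
      _ ≤ _ := by linarith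
  · filter_upwards [R.ts.eventually hKb] with l h1 i j
    show |GG R (sq K l) (Sum.inr i) (Sum.inr j)| ≤ _
    rw [GG_apply]
    have h3 : |sq K l| ≤ 1 := h1.1
    have h4 : |sq K l ^ 2| ≤ 1 := by
      rw [abs_pow]; exact pow_le_one₀ (abs_nonneg _) h3
    calc |R.A0 (Sum.inr i) (Sum.inr j) + sq K l * R.A1 (Sum.inr i) (Sum.inr j) +
          sq K l ^ 2 * R.H (sq K l) (Sum.inr i) (Sum.inr j)| ≤
          |R.A0 (Sum.inr i) (Sum.inr j)| + |sq K l * R.A1 (Sum.inr i) (Sum.inr j)| +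
          |sq K l ^ 2 * R.H (sq K l) (Sum.inr i) (Sum.inr j)| := abs_add_three _ _ _
      _ ≤ K1 + 1 * K2 + 1 * Kh := by
          refine add_le_add (add_le_add (b1 _ _) ?_) ?_
          · rw [abs_mul]
            exact mul_le_mul h3 (b2 _ _) (abs_nonneg _) zero_le_one
          · rw [abs_mul]
            exact mul_le_mul h4 (h1.2 _ _) (abs_nonneg _) zero_le_one
      _ = _ := by ring
  · filter_upwards [R.psdL] with l h1 u w
    have h2 := h1.dotProduct_mulVec_nonneg (Sum.elim u w)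
    rw [star_trivial, Pn_form hD] at h2
    exact h2
  · rw [tendsto_pi_nhds]
    intro i
    exact R.tξ (Sum.inl i)
  · rw [tendsto_pi_nhds]
    intro j
    have := R.tξ (Sum.inr j)
    rw [hN0 j] at this
    exact this
  · filter_upwards [R.ker] with l h1
    rw [Pn_mulVec hD] at h1
    funext i
    have := congrFun h1 (Sum.inl i)
    exact this
  · filter_upwards [R.ker] with l h1
    rw [Pn_mulVec hD] at h1
    funext i
    have := congrFun h1 (Sum.inr i)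
    exact this

end Blocks

end Vale.Agent.P256.H985
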