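import Vale.Agent.P256.H985.CaseII2
import Vale.Agent.P256.H718.StepAZ

/-! Case (C) for a representation with base `z` and block form. -/

set_option linter.all false

namespace Vale.Agent.P256.H985

open Filter Topology Matrix Asymptotics Vale.Agent.P256 Vale.Agent.P256.H326 Vale.Agent.P256.H387

section SideLemmas

variable {ε ν : Type} [Fintype ε] [Fintype ν] [DecidableEq ε] [DecidableEq ν]
variable {L : Type*} {F : Filter L} {A0 A1 : Matrix ε ε ℝ} {D : Matrix ν ν ℝ}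
    {C0 : Matrix ν ε ℝ} {K : ℝ} {x0 h s : L → ℝ} {C : L → Matrix ν ε ℝ} {N : L → Matrix ν ν ℝ}
    {ξE : L → ε → ℝ} {ξN : L → ν → ℝ} {ξ0 : ε → ℝ}

theorem r_lim (H : Side F A0 A1 D C0 K x0 h s C N ξE ξN ξ0) :
    Tendsto (fun l => x0 l / h l) F (𝓝 0) := by
  have h1 := H.x_lim.mul H.s_lim
  rw [mul_zero] at h1
  refine h1.congr' ?_
  filter_upwards [H.s_pos, H.h_pos] with l h2 h3
  field_simp

theorem rs_lim (H : Side F A0 A1 D C0 K x0 h s C N ξE ξN ξ0) :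
    Tendsto (fun l => x0 l / h l / s l) F (𝓝 0) := by
  refine H.x_lim.congr' ?_
  filter_upwards with l
  rw [div_div]

/-- `A₀ ≥ 0` -/
theorem A0_psd [F.NeBot] (H : Side F A0 A1 D C0 K x0 h s C N ξE ξN ξ0) (h0 : A0.IsHermitian) :
    A0.PosSemidef := by
  refine Matrix.PosSemidef.of_dotProduct_mulVec_nonneg h0 fun u => ?_
  rw [star_trivial]
  have h1 : Tendsto (fun l => x0 l / h l * (u ⬝ᵥ u) + qf A0 u + s l * qf A1 u) F
      (𝓝 (0 * (u ⬝ᵥ u) + qf A0 u + 0 * qf A1 u)) :=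
    (((r_lim H).mul_const _).add_const _).add (H.s_lim.mul_const _)
  have h2 : 0 ≤ 0 * (u ⬝ᵥ u) + qf A0 u + 0 * qf A1 u := by
    refine ge_of_tendsto h1 ?_
    filter_upwards [psd_EE H] with l hl using hl u
  rw [zero_mul, zero_mul, zero_add, add_zero] at h2
  exact h2

theorem C_lim (H : Side F A0 A1 D C0 K x0 h s C N ξE ξN ξ0) (i : ν) (j : ε) :
    Tendsto (fun l => C l i j) F (𝓝 (C0 i j)) := by
  have h1 : Tendsto (fun l => K * s l) F (𝓝 0) := by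
    have := H.s_lim.const_mul K
    rwa [mul_zero] at this
  have h2 : Tendsto (fun l => C l i j - C0 i j) F (𝓝 0) := by
    refine squeeze_zero_norm' ?_ h1
    filter_upwards [H.C_lip] with l hl
    exact hl i j
  have h3 := h2.add_const (C0 i j)
  rw [zero_add] at h3
  exact h3.congr fun l => by ring

theorem mulVec_lim {α β : Type} [Fintype α] [Fintype β] {M : L → Matrix α β ℝ} {M0 : Matrix α β ℝ}
    {v : L → β → ℝ} {v0 : β → ℝ} (hM : ∀ i j, Tendsto (fun l => M l i j) F (𝓝 (M0 i j)))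
    (hv : Tendsto v F (𝓝 v0)) : Tendsto (fun l => M l *ᵥ v l) F (𝓝 (M0 *ᵥ v0)) := by
  rw [tendsto_pi_nhds] at hv ⊢
  intro i
  simp only [Matrix.mulVec, dotProduct]
  exact tendsto_finset_sum _ fun j _ => (hM i j).mul (hv j)

/-- the limit of the `E`-row: `A₀ ξ₀ = 0` -/
theorem A0_ker [F.NeBot] (H : Side F A0 A1 D C0 K x0 h s C N ξE ξN ξ0) : A0 *ᵥ ξ0 = 0 := by
  have h1 : Tendsto (fun l => A0 *ᵥ ξE l) F (𝓝 (A0 *ᵥ ξ0)) :=
    mulVec_lim (fun i j => tendsto_const_nhds) H.E_lim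
  have h2 : Tendsto (fun l => A1 *ᵥ ξE l) F (𝓝 (A1 *ᵥ ξ0)) :=
    mulVec_lim (fun i j => tendsto_const_nhds) H.E_lim
  have h3 : Tendsto (fun l => (C l)ᵀ *ᵥ ξN l) F (𝓝 (C0ᵀ *ᵥ 0)) :=
    mulVec_lim (fun i j => C_lim H j i) H.N_lim
  have h4 : Tendsto (fun l => -((x0 l / h l) • ξE l + s l • (A1 *ᵥ ξE l) + (C l)ᵀ *ᵥ ξN l)) F
      (𝓝 (-((0 : ℝ) • ξ0 + (0 : ℝ) • (A1 *ᵥ ξ0) + C0ᵀ *ᵥ 0))) :=
    ((((r_lim H).smul H.E_lim).add (H.s_lim.smul h2)).add h3).neg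
  have h5 : -((0 : ℝ) • ξ0 + (0 : ℝ) • (A1 *ᵥ ξ0) + C0ᵀ *ᵥ 0) = 0 := by
    simp
  rw [h5] at h4
  refine tendsto_nhds_unique h1 (h4.congr' ?_)
  filter_upwards [H.rowE, H.h_pos] with l h6 h7
  have h8 : h l • ((x0 l / h l) • ξE l + A0 *ᵥ ξE l + s l • (A1 *ᵥ ξE l) + (C l)ᵀ *ᵥ ξN l) = 0 := by
    rw [← h6]
    simp only [smul_add, smul_smul]
    rw [mul_div_cancel₀ _ h7.ne']
    abel
  have h9 := (smul_eq_zero.1 h8).resolve_left h7.ne'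
  have h10 : A0 *ᵥ ξE l = -((x0 l / h l) • ξE l + s l • (A1 *ᵥ ξE l) + (C l)ᵀ *ᵥ ξN l) := by
    rw [eq_neg_iff_add_eq_zero, ← h9]
    abel
  exact h10.symm

end SideLemmas

variable {ε ν : Type} [Fintype ε] [Fintype ν] [DecidableEq ε] [DecidableEq ν]
variable {L X : Type} {F : Filter L} {V : Filter X} {S : L → X → ℝ} {K : Crd L X}

theorem A0e_herm (R : KRepZ (ε ⊕ ν) F V S K) : (A0e R).IsHermitian := by
  ext i j
  have := congrFun (congrFun R.sym0 (Sum.inl i)) (Sum.inl j)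
  simpa [A0e, Matrix.toBlocks₁₁] using this

theorem A1e_herm (R : KRepZ (ε ⊕ ν) F V S K) : (A1e R).IsHermitian := by
  ext i j
  have := congrFun (congrFun R.sym1 (Sum.inl i)) (Sum.inl j)
  simpa [A1e, Matrix.toBlocks₁₁] using this

/-- **Case (C)** -/
theorem caseC (R : KRepZ (ε ⊕ ν) F V S K) [F.NeBot] {D' : Matrix ν ν ℝ}
    (hD : R.D = Matrix.fromBlocks 0 0 0 D') (hD' : D'.PosDef) (star : Star F V S K)
    (ha : ∀ᶠ l in F, 0 < K.a l) (hx : Tendsto (fun l => K.x0 l / K.a l) F (𝓝 0))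
    (hA10 : R.ξ0 ⬝ᵥ (R.A1 *ᵥ R.ξ0) = 0)
    (hno : ∀ s : ℝ, 0 < s → ∃ v, qf (A0e R) v + s * qf (A1e R) v < 0)
    (hy : ∃ c : ℝ, ∀ᶠ x in V, K.y0 x ≤ c * K.b' x) : SosF F V S := by
  have hN0 := xi0_N R hD hD'
  obtain ⟨Kc, hS⟩ := side_of R hD ha hx hN0
  have hH0 := A0e_herm R
  have hH1 := A1e_herm R
  have hpsd := A0_psd hS hH0
  have hker := A0_ker hS
  obtain ⟨v, hv, hv1, hne⟩ := c2 hpsd hH1
    (fun v hv => c1 hS.s_pos (rs_lim hS) (psd_EE hS) hv) hno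
  have hξ : R.ξ0 = Sum.elim (R.ξ0 ∘ Sum.inl) 0 := by
    funext i
    rcases i with i | i
    · rfl
    · exact hN0 i
  have hA0ξ : R.A0 *ᵥ R.ξ0 = Sum.elim (0 : ε → ℝ) (CC R 0 *ᵥ (R.ξ0 ∘ Sum.inl)) := by
    have e0 : R.A0 = Matrix.fromBlocks (A0e R) (CC R 0)ᵀ (CC R 0) (NN R 0) := by
      ext (i | i) (j | j)
      · rfl
      · rw [Matrix.fromBlocks_apply₁₂]
        show _ = GG R 0 (Sum.inr j) (Sum.inl i)
        rw [GG_swap, GG_apply]; ring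
      · rw [Matrix.fromBlocks_apply₂₁]
        show _ = GG R 0 (Sum.inr i) (Sum.inl j)
        rw [GG_apply]; ring
      · rw [Matrix.fromBlocks_apply₂₂]
        show _ = GG R 0 (Sum.inr i) (Sum.inr j)
        rw [GG_apply]; ring
    rw [e0]
    conv_lhs => rw [hξ]
    rw [Matrix.fromBlocks_mulVec]
    have e1 : (Sum.elim (R.ξ0 ∘ Sum.inl) (0 : ν → ℝ)) ∘ (Sum.inl : ε → ε ⊕ ν) =
      R.ξ0 ∘ Sum.inl := rfl
    have e2 : (Sum.elim (R.ξ0 ∘ Sum.inl) (0 : ν → ℝ)) ∘ (Sum.inr : ν → ε ⊕ ν) = 0 := rfl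
    rw [e1, e2, hker, Matrix.mulVec_zero, Matrix.mulVec_zero, add_zero, add_zero]
  have hdot : ∀ (a a' : ε → ℝ) (b b' : ν → ℝ), (Sum.elim a b) ⬝ᵥ (Sum.elim a' b') =
      a ⬝ᵥ a' + b ⬝ᵥ b' := by
    intro a a' b b'
    simp [dotProduct, Fintype.sum_sum_type]
  by_cases hC : CC R 0 *ᵥ (R.ξ0 ∘ Sum.inl) = 0
  · by_cases hA1 : A1e R *ᵥ (R.ξ0 ∘ Sum.inl) = 0
    · exfalso
      have hξ0 : R.ξ0 ∘ (Sum.inl : ε → ε ⊕ ν) ≠ 0 := by
        intro h0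
        have h1 := R.nrm0
        rw [hξ, h0, hdot, dotProduct_zero, dotProduct_zero, add_zero] at h1
        exact zero_ne_one h1
      exact caseIII hS hD' hH0 hH1 hv hv1 hne hξ0 hker hA1 hC
    · exact H718.stepA_krep0 R hD hD' hy hA10 hA1
  · set g : ν → ℝ := CC R 0 *ᵥ (R.ξ0 ∘ Sum.inl) with hg
    refine caseII R hD hD' star ha hx ?_ (n0 := Sum.elim (0 : ε → ℝ) g) ?_ ?_
    · rw [hA0ξ, hξ, hdot, dotProduct_zero, zero_dotProduct, add_zero]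
    · rw [hξ, hdot, dotProduct_zero, zero_dotProduct, add_zero]
    · rw [hA0ξ, hdot, dotProduct_zero, zero_add]
      exact (dot_self_pos hC).ne'

end Vale.Agent.P256.H985
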