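import Vale.Agent.P256.H985.Kern

/-! Case (C) (ii): `A₀ ξ₀` is not a multiple of `ξ₀`. -/

set_option linter.all false

namespace Vale.Agent.P256.H985

open Filter Topology Matrix Asymptotics
open Vale.Agent.P256 Vale.Agent.P256.H326 Vale.Agent.P256.H387

variable {ε ν : Type} [Fintype ε] [Fintype ν] [DecidableEq ε] [DecidableEq ν]
variable {L X : Type} {F : Filter L} {V : Filter X} {S : L → X → ℝ} {K : Crd L X}

/-- the matrix of the second side -/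
noncomputable def Mx (R : KRepZ (ε ⊕ ν) F V S K) (x : X) : Matrix (ε ⊕ ν) (ε ⊕ ν) ℝ :=
  Pn R.D R.A0 R.A1 R.H (K.y0 x) 1 (K.b' x) (sq' K x)

/-- `|F|²` -/
noncomputable def Qk (R : KRepZ (ε ⊕ ν) F V S K) (l : L) (x : X) : ℝ :=
  R.ξ l ⬝ᵥ (Mx R x *ᵥ R.ξ l)

/-- the error `E` -/
noncomputable def Ek (R : KRepZ (ε ⊕ ν) F V S K) (l : L) (x : X) : ℝ :=
  K.b' x * ∑ i, ∑ j, R.ξ l i * R.ξ l j * ddG R i j l x

theorem sosF_Qk (R : KRepZ (ε ⊕ ν) F V S K) : SosF F V (Qk R) := by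
  have h1 : ∀ᶠ x in V, (Mx R x).PosSemidef := R.psdX
  refine (sosF_psd (F := F) h1 R.ξ).congr' fun l x => ?_
  exact dot_mulVec_eq (Mx R x) (R.ξ l) (R.ξ l)

theorem fr_row (R : KRepZ (ε ⊕ ν) F V S K) (v : L → ε ⊕ ν → ℝ) :
    FR (fun l x => v l ⬝ᵥ (Mx R x *ᵥ R.ξ l)) := by
  refine FR.congr (h := fun l x => ∑ i, ∑ j, Mx R x i j * v l i * R.ξ l j) ?_
    (fun l x => dot_mulVec_eq _ _ _)
  refine FR.sum _ fun i _ => FR.sum _ fun j _ => ?_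
  exact (FR.mulfun (fun l => v l i * R.ξ l j) (fun x => Mx R x i j)).congr fun l x => by ring

theorem tGG' (R : KRepZ (ε ⊕ ν) F V S K) (i j : ε ⊕ ν) :
    Tendsto (fun x => GG R (sq' K x) i j) V (𝓝 (R.A0 i j)) := by
  have h1 : Tendsto (fun x => R.H (sq' K x) i j) V (𝓝 (R.H 0 i j)) :=
    (R.nk i j).cont.tendsto.comp R.ts'
  have h2 : Tendsto (fun x => R.A0 i j + sq' K x * R.A1 i j + sq' K x ^ 2 * R.H (sq' K x) i j) V
      (𝓝 (R.A0 i j + 0 * R.A1 i j + 0 ^ 2 * R.H 0 i j)) :=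
    (tendsto_const_nhds.add (R.ts'.mul_const _)).add ((R.ts'.pow 2).mul h1)
  simp only [zero_mul, add_zero, ne_eq, OfNat.ofNat_ne_zero, not_false_eq_true, zero_pow] at h2
  refine h2.congr fun x => ?_
  rw [GG_apply]

theorem tGG (R : KRepZ (ε ⊕ ν) F V S K) (i j : ε ⊕ ν) :
    Tendsto (fun l => GG R (sq K l) i j) F (𝓝 (R.A0 i j)) := by
  have h2 : Tendsto (fun l => R.A0 i j + sq K l * R.A1 i j + sq K l ^ 2 * R.H (sq K l) i j) F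
      (𝓝 (R.A0 i j + 0 * R.A1 i j + 0 ^ 2 * R.H 0 i j)) :=
    (tendsto_const_nhds.add (R.ts.mul_const _)).add ((R.ts.pow 2).mul (tH R i j))
  simp only [zero_mul, add_zero, ne_eq, OfNat.ofNat_ne_zero, not_false_eq_true, zero_pow] at h2
  refine h2.congr fun x => ?_
  rw [GG_apply]

theorem Pn_apply (R : KRepZ (ε ⊕ ν) F V S K) (x0 h s : ℝ) (i j : ε ⊕ ν) :
    Pn R.D R.A0 R.A1 R.H x0 1 h s i j =
      x0 * (1 : Matrix (ε ⊕ ν) (ε ⊕ ν) ℝ) i j + R.D i j + h * GG R s i j := by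
  simp [Pn, GG]

theorem tMx (R : KRepZ (ε ⊕ ν) F V S K) (i j : ε ⊕ ν) :
    Tendsto (fun x => Mx R x i j) V (𝓝 (R.D i j)) := by
  have h1 := ((R.ty0.mul_const ((1 : Matrix (ε ⊕ ν) (ε ⊕ ν) ℝ) i j)).add_const (R.D i j)).add
    (R.tb'.mul (tGG' R i j))
  simp only [zero_mul, add_zero, zero_add] at h1
  refine h1.congr fun x => ?_
  unfold Mx
  rw [Pn_apply]

/-- rows of `M(y) ξ` are dominated by `|F|²` -/
theorem dom_row (R : KRepZ (ε ⊕ ν) F V S K) (v : ε ⊕ ν → ℝ) :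
    H201.Dom F V (fun l x => v ⬝ᵥ (Mx R x *ᵥ R.ξ l)) (Qk R) := by
  have h1 := sosF_cs (F := F) (M := Mx R) R.psdX (fun _ => v) R.ξ
  have h2 : Tendsto (fun x => v ⬝ᵥ (Mx R x *ᵥ v)) V (𝓝 (v ⬝ᵥ (R.D *ᵥ v))) := by
    simp only [dot_mulVec_eq]
    exact tendsto_finsetSum _ fun i _ => tendsto_finsetSum _ fun j _ =>
      ((tMx R i j).mul_const _).mul_const _
  have h3 : SosF F V (fun (_ : L) x => (|v ⬝ᵥ (R.D *ᵥ v)| + 1) - v ⬝ᵥ (Mx R x *ᵥ v)) := by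
    refine SosF.right ?_
    filter_upwards [h2.eventually_lt_const
      (show v ⬝ᵥ (R.D *ᵥ v) < |v ⬝ᵥ (R.D *ᵥ v)| + 1 by linarith [le_abs_self (v ⬝ᵥ (R.D *ᵥ v))])]
      with x hx
    linarith
  refine ⟨fr_row R fun _ => v, |v ⬝ᵥ (R.D *ᵥ v)| + 1, by positivity, ?_⟩
  refine (h1.add (h3.mul (sosF_Qk R))).congr' fun l x => ?_
  unfold Qk
  ring

/-- the row identity -/
theorem row_eq (R : KRepZ (ε ⊕ ν) F V S K) (v : ε ⊕ ν → ℝ) :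
    EqF F V (fun l x => v ⬝ᵥ (Mx R x *ᵥ R.ξ l))
      (fun l x => K.t l x * (v ⬝ᵥ R.ξ l) + K.Z l x * (v ⬝ᵥ (GG R (sq K l) *ᵥ R.ξ l)) +
        ∑ i, ∑ j, v i * R.ξ l j * (K.b' x * dG R i j l x)) := by
  refine EqF.of_eventually _ (fun _ => True) R.ker (by simp) fun l x hl _ => ?_
  have e1 : ∀ (x0 h s : ℝ), v ⬝ᵥ (Pn R.D R.A0 R.A1 R.H x0 1 h s *ᵥ R.ξ l) =
      x0 * (v ⬝ᵥ R.ξ l) + v ⬝ᵥ (R.D *ᵥ R.ξ l) + h * (v ⬝ᵥ (GG R s *ᵥ R.ξ l)) := by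
    intro x0 h s
    have : Pn R.D R.A0 R.A1 R.H x0 1 h s = x0 • (1 : Matrix (ε ⊕ ν) (ε ⊕ ν) ℝ) + R.D + h • GG R s := by
      ext i j
      rw [Pn_apply]
      simp
    rw [this, Matrix.add_mulVec, Matrix.add_mulVec, Matrix.smul_mulVec, Matrix.smul_mulVec,
      Matrix.one_mulVec, dotProduct_add, dotProduct_add, dotProduct_smul, dotProduct_smul]
    simp only [smul_eq_mul]
  have e2 : v ⬝ᵥ (Pn R.D R.A0 R.A1 R.H (K.x0 l) 1 (K.b l) (K.a l / K.b l) *ᵥ R.ξ l) = 0 := by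
    rw [hl, dotProduct_zero]
  rw [e1] at e2
  unfold Mx
  rw [e1]
  have e3 : ∑ i, ∑ j, v i * R.ξ l j * (K.b' x * dG R i j l x) =
      K.b' x * (v ⬝ᵥ (GG R (sq' K x) *ᵥ R.ξ l) - v ⬝ᵥ (GG R (sq K l) *ᵥ R.ξ l)) := by
    rw [dot_mulVec_eq, dot_mulVec_eq, ← Finset.sum_sub_distrib, Finset.mul_sum]
    refine Finset.sum_congr rfl fun i _ => ?_
    rw [← Finset.sum_sub_distrib, Finset.mul_sum]
    refine Finset.sum_congr rfl fun j _ => ?_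
    unfold dG
    ring
  rw [e3]
  have e4 : v ⬝ᵥ (GG R (K.a l / K.b l) *ᵥ R.ξ l) = v ⬝ᵥ (GG R (sq K l) *ᵥ R.ξ l) := rfl
  rw [e4] at e2
  unfold Crd.t Crd.Z
  linarith

/-- `P = |F|² + (b'(s'-s))²` -/
noncomputable def Pk (R : KRepZ (ε ⊕ ν) F V S K) (l : L) (x : X) : ℝ :=
  Qk R l x + (K.b' x * sg K l x) ^ 2

theorem fr_b'sg (K : Crd L X) : FR (fun l x => K.b' x * sg K l x) :=
  (FR.right (fun x => K.b' x)).mul (fr_sg K)

theorem sosF_Pk (R : KRepZ (ε ⊕ ν) F V S K) : SosF F V (Pk R) :=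
  (sosF_Qk R).add (SosF.sq (fr_b'sg K))

theorem dom_b'dG (R : KRepZ (ε ⊕ ν) F V S K) (i j : ε ⊕ ν) :
    H201.Dom F V (fun l x => K.b' x * dG R i j l x) (Pk R) := by
  obtain ⟨hf, C, hC, h1⟩ := dom_dG R i j
  have h2 : SosF F V (fun (_ : L) x => K.b' x ^ 2) :=
    SosF.right (Eventually.of_forall fun x => sq_nonneg _)
  refine ⟨(FR.right (fun x => K.b' x)).mul hf, C, hC, ?_⟩
  refine ((h2.mul h1).add ((sosF_Qk R).smul hC.le)).congr' fun l x => ?_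
  unfold Pk
  ring

theorem tdot (R : KRepZ (ε ⊕ ν) F V S K) (v : ε ⊕ ν → ℝ) :
    Tendsto (fun l => v ⬝ᵥ R.ξ l) F (𝓝 (v ⬝ᵥ R.ξ0)) := by
  simp only [dotProduct]
  exact tendsto_finsetSum _ fun i _ => (R.tξ i).const_mul _

theorem tdotG (R : KRepZ (ε ⊕ ν) F V S K) (v : ε ⊕ ν → ℝ) :
    Tendsto (fun l => v ⬝ᵥ (GG R (sq K l) *ᵥ R.ξ l)) F (𝓝 (v ⬝ᵥ (R.A0 *ᵥ R.ξ0))) := by
  simp only [dot_mulVec_eq]
  exact tendsto_finsetSum _ fun i _ => tendsto_finsetSum _ fun j _ =>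
    ((tGG R i j).mul_const _).mul (R.tξ j)

theorem fr_t (K : Crd L X) : FR K.t := (FR.right _).sub (FR.left _)
theorem fr_Z (K : Crd L X) : FR K.Z := (FR.right _).sub (FR.left _)
theorem fr_α (K : Crd L X) : FR K.α := (FR.right _).sub (FR.left _)

/-- the combinations `t ⟨v,ξ⟩ + Z ⟨v,Gξ⟩` are dominated by `P` -/
theorem dom_comb (R : KRepZ (ε ⊕ ν) F V S K) (v : ε ⊕ ν → ℝ) :
    H201.Dom F V (fun l x => K.t l x * (v ⬝ᵥ R.ξ l) +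
      K.Z l x * (v ⬝ᵥ (GG R (sq K l) *ᵥ R.ξ l))) (Pk R) := by
  have hP := sosF_Pk R
  have h1 : H201.Dom F V (fun l x => v ⬝ᵥ (Mx R x *ᵥ R.ξ l)) (Pk R) := by
    refine (dom_row R v).mono ?_
    refine (SosF.sq (fr_b'sg K)).congr' fun l x => ?_
    unfold Pk
    ring
  have h2 : H201.Dom F V (fun l x => ∑ i, ∑ j, v i * R.ξ l j * (K.b' x * dG R i j l x)) (Pk R) := by
    refine H201.Dom.sum _ hP fun i _ => H201.Dom.sum _ hP fun j _ => ?_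
    refine H201.Dom.germ (h := fun l _ => v i * R.ξ l j) (dom_b'dG R i j)
      (GermFR.left ((R.tξ j).const_mul (v i)))
  refine (h1.sub h2).congr ?_ ?_
  · exact ((fr_t K).mul (FR.left _)).add ((fr_Z K).mul (FR.left _))
  · obtain ⟨A, hA, B, hB, e⟩ := row_eq R v
    refine ⟨A, hA, B, hB, fun l hl x hx => ?_⟩
    have := e l hl x hx
    beta_reduce at this ⊢
    rw [this]; ring

/-- `t` and `Z` are dominated by `P` -/
theorem dom_tZ (R : KRepZ (ε ⊕ ν) F V S K) (h00 : R.ξ0 ⬝ᵥ (R.A0 *ᵥ R.ξ0) = 0)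
    {n0 : ε ⊕ ν → ℝ} (hn : n0 ⬝ᵥ R.ξ0 = 0) (hn' : n0 ⬝ᵥ (R.A0 *ᵥ R.ξ0) ≠ 0) :
    H201.Dom F V K.t (Pk R) ∧ H201.Dom F V K.Z (Pk R) := by
  set o1 : L → ℝ := fun l => R.ξ0 ⬝ᵥ (GG R (sq K l) *ᵥ R.ξ l) with ho1
  set o2 : L → ℝ := fun l => n0 ⬝ᵥ R.ξ l with ho2
  set κ : L → ℝ := fun l => n0 ⬝ᵥ (GG R (sq K l) *ᵥ R.ξ l) with hκ
  have t1 : Tendsto o1 F (𝓝 0) := by
    have := tdotG R R.ξ0
    rwa [h00] at this
  have t2 : Tendsto o2 F (𝓝 0) := by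
    have := tdot R n0
    rwa [hn] at this
  have t3 : Tendsto κ F (𝓝 (n0 ⬝ᵥ (R.A0 *ᵥ R.ξ0))) := tdotG R n0
  have t4 : Tendsto (fun l => κ l - o2 l * o1 l) F (𝓝 (n0 ⬝ᵥ (R.A0 *ᵥ R.ξ0))) := by
    have := t3.sub (t2.mul t1)
    simpa using this
  have t5 : Tendsto (fun l => (κ l - o2 l * o1 l)⁻¹) F (𝓝 (n0 ⬝ᵥ (R.A0 *ᵥ R.ξ0))⁻¹) := t4.inv₀ hn'
  have d1 : H201.Dom F V (fun l x => K.t l x * (R.ξ0 ⬝ᵥ R.ξ l) + K.Z l x * o1 l) (Pk R) :=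
    dom_comb R R.ξ0
  have d2 : H201.Dom F V (fun l x => K.t l x * o2 l + K.Z l x * κ l) (Pk R) := dom_comb R n0
  have d1' : H201.Dom F V (fun l x => K.t l x + K.Z l x * o1 l) (Pk R) := by
    refine d1.congr ((fr_t K).add ((fr_Z K).mul (FR.left _))) ?_
    refine EqF.of_eventually _ (fun _ => True) R.nrm (by simp) fun l x hl _ => ?_
    have hl' : R.ξ0 ⬝ᵥ R.ξ l = 1 := hl
    show K.t l x + K.Z l x * o1 l = K.t l x * (R.ξ0 ⬝ᵥ R.ξ l) + K.Z l x * o1 l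
    rw [hl']; ring
  have d3 : H201.Dom F V K.Z (Pk R) := by
    have d4 := (d2.sub (d1'.germ (h := fun l _ => o2 l) (GermFR.left t2))).germ
      (h := fun l _ => (κ l - o2 l * o1 l)⁻¹) (GermFR.left t5)
    refine d4.congr (fr_Z K) ?_
    refine EqF.of_eventually _ (fun _ => True) (t4.eventually_ne hn') (by simp)
      fun l x hl _ => ?_
    have hl' : κ l - o2 l * o1 l ≠ 0 := hl
    show K.Z l x = (κ l - o2 l * o1 l)⁻¹ * ((K.t l x * o2 l + K.Z l x * κ l) -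
      o2 l * (K.t l x + K.Z l x * o1 l))
    field_simp
    ring
  refine ⟨?_, d3⟩
  refine (d1'.sub (d3.germ (h := fun l _ => o1 l) (GermFR.left t1))).congr' fun l x => ?_
  ring

theorem b'sg_eq (R : KRepZ (ε ⊕ ν) F V S K) :
    EqF F V (fun l x => K.b' x * sg K l x) (fun l x => K.α l x - sq K l * K.Z l x) := by
  refine EqF.of_eventually _ _ R.b_pos R.b'_pos fun l x hl hx => ?_
  unfold sg sq sq' Crd.α Crd.Z
  have h1 := hl.ne'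
  have h2 := hx.ne'
  field_simp
  ring

theorem bsg_eq (R : KRepZ (ε ⊕ ν) F V S K) :
    EqF F V (fun l x => K.b l * sg K l x) (fun l x => K.α l x - sq' K x * K.Z l x) := by
  refine EqF.of_eventually _ _ R.b_pos R.b'_pos fun l x hl hx => ?_
  unfold sg sq sq' Crd.α Crd.Z
  have h1 := hl.ne'
  have h2 := hx.ne'
  field_simp
  ring

end Vale.Agent.P256.H985
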