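import Vale.Agent.P256.H985.CaseII

/-! Case (C) (ii): the error term and the conclusion. -/

set_option linter.all false

namespace Vale.Agent.P256.H985

open Filter Topology Matrix Asymptotics
open Vale.Agent.P256 Vale.Agent.P256.H326 Vale.Agent.P256.H387

variable {ε ν : Type} [Fintype ε] [Fintype ν] [DecidableEq ε] [DecidableEq ν]
variable {L X : Type} {F : Filter L} {V : Filter X} {S : L → X → ℝ} {K : Crd L X}
variable {D' : Matrix ν ν ℝ}

/-- the limit vector lies in the kernel of `D` -/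
theorem xi0_N (R : KRepZ (ε ⊕ ν) F V S K) [F.NeBot] (hD : R.D = Matrix.fromBlocks 0 0 0 D')
    (hD' : D'.PosDef) (j : ν) : R.ξ0 (Sum.inr j) = 0 := by
  have h1 : D' *ᵥ (R.ξ0 ∘ Sum.inr) = 0 := by
    funext k
    have h2 : ∀ᶠ l in F, (D' *ᵥ (R.ξ l ∘ Sum.inr)) k = -(K.x0 l * R.ξ l (Sum.inr k) +
        K.b l * ∑ m, GG R (sq K l) (Sum.inr k) m * R.ξ l m) := by
      filter_upwards [R.ker] with l hl
      have h3 := congrFun hl (Sum.inr k)
      have h4 : (Pn R.D R.A0 R.A1 R.H (K.x0 l) 1 (K.b l) (K.a l / K.b l) *ᵥ R.ξ l) (Sum.inr k) =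
          K.x0 l * R.ξ l (Sum.inr k) + (D' *ᵥ (R.ξ l ∘ Sum.inr)) k +
          K.b l * ∑ m, GG R (sq K l) (Sum.inr k) m * R.ξ l m := by
        rw [Pn_mulVec hD]
        show (K.x0 l • (R.ξ l ∘ Sum.inr) + D' *ᵥ (R.ξ l ∘ Sum.inr) + K.b l •
          (CC R (sq K l) *ᵥ (R.ξ l ∘ Sum.inl) + NN R (sq K l) *ᵥ (R.ξ l ∘ Sum.inr))) k = _
        rw [Fintype.sum_sum_type]
        simp only [Pi.add_apply, Pi.smul_apply, smul_eq_mul, Function.comp_apply, CC, NN,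
          Matrix.mulVec, dotProduct, Matrix.toBlocks₂₁, Matrix.toBlocks₂₂, Matrix.of_apply]
      rw [h4] at h3
      have h5 : (0 : ε ⊕ ν → ℝ) (Sum.inr k) = 0 := rfl
      rw [h5] at h3
      linarith
    have t1 : Tendsto (fun l => -(K.x0 l * R.ξ l (Sum.inr k) +
        K.b l * ∑ m, GG R (sq K l) (Sum.inr k) m * R.ξ l m)) F
        (𝓝 (-(0 * R.ξ0 (Sum.inr k) + 0 * ∑ m, R.A0 (Sum.inr k) m * R.ξ0 m))) :=
      ((R.tx0.mul (R.tξ _)).add (R.tb.mul (tendsto_finsetSum _ fun m _ =>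
        (tGG R _ m).mul (R.tξ m)))).neg
    have t2 : Tendsto (fun l => (D' *ᵥ (R.ξ l ∘ Sum.inr)) k) F
        (𝓝 ((D' *ᵥ (R.ξ0 ∘ Sum.inr)) k)) := by
      show Tendsto (fun l => ∑ m, D' k m * R.ξ l (Sum.inr m)) F (𝓝 (∑ m, D' k m * R.ξ0 (Sum.inr m)))
      exact tendsto_finsetSum _ fun m _ => (R.tξ _).const_mul _
    have t3 := tendsto_nhds_unique t2 (t1.congr' (h2.mono fun l hl => hl.symm))
    rw [t3]
    simp
  have h2 : R.ξ0 ∘ Sum.inr = (0 : ν → ℝ) := by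
    by_contra hne
    have h3 := hD'.dotProduct_mulVec_pos hne
    rw [h1] at h3
    simp at h3
  exact congrFun h2 j

/-- `ξ_N = O(b)` -/
theorem xiN_O (R : KRepZ (ε ⊕ ν) F V S K) [F.NeBot] (hD : R.D = Matrix.fromBlocks 0 0 0 D')
    (hD' : D'.PosDef) (ha : ∀ᶠ l in F, 0 < K.a l)
    (hx : Tendsto (fun l => K.x0 l / K.a l) F (𝓝 0)) :
    ∃ C : ℝ, 0 ≤ C ∧ ∀ᶠ l in F, ∀ j, |R.ξ l (Sum.inr j)| ≤ C * K.b l := by
  obtain ⟨Kc, hS⟩ := side_of R hD ha hx (xi0_N R hD hD')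
  have h1 := xiN_bound hS hD' R.x0_nonneg
  have h2 : (fun l => K.b l * ‖CC R (sq K l) *ᵥ (R.ξ l ∘ Sum.inl)‖) =O[F] K.b := by
    have h3 : Tendsto (fun l => CC R (sq K l) *ᵥ (R.ξ l ∘ Sum.inl)) F
        (𝓝 (CC R 0 *ᵥ (R.ξ0 ∘ Sum.inl))) := by
      rw [tendsto_pi_nhds]
      intro j
      show Tendsto (fun l => ∑ m, GG R (sq K l) (Sum.inr j) (Sum.inl m) * R.ξ l (Sum.inl m)) F
        (𝓝 (∑ m, GG R 0 (Sum.inr j) (Sum.inl m) * R.ξ0 (Sum.inl m)))
      refine tendsto_finsetSum _ fun m _ => ?_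
      have := (tGG R (Sum.inr j) (Sum.inl m)).mul (R.tξ (Sum.inl m))
      have e : GG R 0 (Sum.inr j) (Sum.inl m) = R.A0 (Sum.inr j) (Sum.inl m) := by
        rw [GG_apply]; ring
      rw [e]
      exact this
    have h4 := (isBigO_refl K.b F).mul (h3.isBigO_one ℝ).norm_left
    simpa using h4
  obtain ⟨C, hC⟩ := (h1.trans h2).bound
  refine ⟨|C|, abs_nonneg _, ?_⟩
  filter_upwards [hC, R.b_pos] with l hl hb j
  have h5 : ‖(R.ξ l ∘ Sum.inr) j‖ ≤ ‖R.ξ l ∘ Sum.inr‖ := norm_le_pi_norm _ j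
  rw [Real.norm_eq_abs] at h5
  rw [Real.norm_of_nonneg hb.le] at hl
  calc |R.ξ l (Sum.inr j)| ≤ ‖R.ξ l ∘ Sum.inr‖ := h5
    _ ≤ C * K.b l := hl
    _ ≤ |C| * K.b l := mul_le_mul_of_nonneg_right (le_abs_self C) hb.le

/-- the error is bounded by `b b' (s'-s)²` -/
theorem bd_E (R : KRepZ (ε ⊕ ν) F V S K) [F.NeBot] (hD : R.D = Matrix.fromBlocks 0 0 0 D')
    (hD' : D'.PosDef) (ha : ∀ᶠ l in F, 0 < K.a l)
    (hx : Tendsto (fun l => K.x0 l / K.a l) F (𝓝 0)) :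
    Bd F V (Ek R) (fun l x => K.b' x * (K.b l * sg K l x ^ 2)) := by
  obtain ⟨C, hC, hb⟩ := xiN_O R hD hD' ha hx
  have hQ : SosF F V (fun l x => K.b l * sg K l x ^ 2) :=
    (SosF.left (R.b_pos.mono fun l hl => hl.le)).mul (SosF.sq (fr_sg K))
  have hξb : ∀ i, ∀ᶠ l in F, |R.ξ l i| ≤ |R.ξ0 i| + 1 := fun i =>
    ((R.tξ i).abs.eventually_lt_const (lt_add_one _)).mono fun _ h => h.le
  have hterm : ∀ i j, Bd F V (fun l x => R.ξ l i * R.ξ l j * ddG R i j l x)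
      (fun l x => K.b l * sg K l x ^ 2) := by
    intro i j
    have hb1 : Bd F V (fun l x => K.b l * ddG R i j l x) (fun l x => K.b l * sg K l x ^ 2) :=
      (bd_ddG R i j).smul_sos (SosF.left (R.b_pos.mono fun l hl => hl.le))
    -- a bound for the quotient gives the claim
    have key : (∃ B : ℝ, ∀ᶠ l in F, |R.ξ l i * R.ξ l j / K.b l| ≤ B) →
        Bd F V (fun l x => R.ξ l i * R.ξ l j * ddG R i j l x)
          (fun l x => K.b l * sg K l x ^ 2) := by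
      rintro ⟨B, hB⟩
      refine (hb1.left hQ hB).congr ?_
      refine EqF.of_eventually _ (fun _ => True) R.b_pos (by simp) fun l x hl _ => ?_
      have := hl.ne'
      field_simp
    rcases i with i | i
    · rcases j with j | j
      · refine (Bd.zero hQ).congr ?_
        refine EqF.of_eventually (fun l => ∀ x, ddG R (Sum.inl i) (Sum.inl j) l x = 0)
          (fun _ => True) (ddG_EE R hD i j) (by simp) fun l x hl _ => ?_
        rw [hl x, mul_zero]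
      · refine key ⟨(|R.ξ0 (Sum.inl i)| + 1) * C, ?_⟩
        filter_upwards [hb, hξb (Sum.inl i), R.b_pos] with l h1 h2 h3
        rw [abs_div, abs_mul, abs_of_pos h3, div_le_iff₀ h3]
        calc |R.ξ l (Sum.inl i)| * |R.ξ l (Sum.inr j)| ≤
            (|R.ξ0 (Sum.inl i)| + 1) * (C * K.b l) :=
              mul_le_mul h2 (h1 j) (abs_nonneg _) (by positivity)
          _ = _ := by ring
    · refine key ⟨(|R.ξ0 j| + 1) * C, ?_⟩
      filter_upwards [hb, hξb j, R.b_pos] with l h1 h2 h3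
      rw [abs_div, abs_mul, abs_of_pos h3, div_le_iff₀ h3, mul_comm]
      calc |R.ξ l j| * |R.ξ l (Sum.inr i)| ≤ (|R.ξ0 j| + 1) * (C * K.b l) :=
            mul_le_mul h2 (h1 i) (abs_nonneg _) (by positivity)
        _ = _ := by ring
  have hsum := Bd.sum (F := F) (V := V) Finset.univ hQ fun i _ =>
    Bd.sum (F := F) (V := V) Finset.univ hQ fun j _ => hterm i j
  exact hsum.smul_sos (SosF.right (R.b'_pos.mono fun x hx => hx.le))

/-- `b b' (s'-s)² ≤ 2 α² + δ Z²` -/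
theorem bb_le (R : KRepZ (ε ⊕ ν) F V S K) {δ : ℝ} (hδ : 0 < δ) :
    SosF F V (fun l x => 2 * K.α l x ^ 2 + δ * K.Z l x ^ 2 -
      K.b' x * (K.b l * sg K l x ^ 2)) := by
  have hs : SosF F V (fun l (_ : X) => δ / 2 - sq K l ^ 2) := by
    refine SosF.left ?_
    have := R.ts.pow 2
    simp only [ne_eq, OfNat.ofNat_ne_zero, not_false_eq_true, zero_pow] at this
    filter_upwards [this.eventually_lt_const (show (0 : ℝ) < δ / 2 by positivity)] with l hl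
    exact sub_nonneg.2 hl.le
  have hs' : SosF F V (fun (_ : L) x => δ / 2 - sq' K x ^ 2) := by
    refine SosF.right ?_
    have := R.ts'.pow 2
    simp only [ne_eq, OfNat.ofNat_ne_zero, not_false_eq_true, zero_pow] at this
    filter_upwards [this.eventually_lt_const (show (0 : ℝ) < δ / 2 by positivity)] with l hl
    exact sub_nonneg.2 hl.le
  have fs : FR (fun l x => sq K l * K.Z l x) := (FR.left _).mul (fr_Z K)
  have fs' : FR (fun l x => sq' K x * K.Z l x) := (FR.right _).mul (fr_Z K)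
  have h1 : SosF F V (fun l x => 1 / 2 * (sq' K x * K.Z l x - sq K l * K.Z l x) ^ 2) :=
    (SosF.sq (fs'.sub fs)).smul (by norm_num)
  have h2 : SosF F V (fun l x => 1 / 2 * (K.α l x + sq K l * K.Z l x) ^ 2) :=
    (SosF.sq ((fr_α K).add fs)).smul (by norm_num)
  have h3 : SosF F V (fun l x => 1 / 2 * (K.α l x + sq' K x * K.Z l x) ^ 2) :=
    (SosF.sq ((fr_α K).add fs')).smul (by norm_num)
  have hZ : SosF F V (fun l x => K.Z l x ^ 2) := SosF.sq (fr_Z K)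
  refine (((((h1.add h2).add h3).add (hs.mul hZ)).add (hs'.mul hZ))).congr ?_
  obtain ⟨A, hA, B, hB, e⟩ := b'sg_eq R
  obtain ⟨A', hA', B', hB', e'⟩ := bsg_eq R
  refine ⟨A ∩ A', inter_mem hA hA', B ∩ B', inter_mem hB hB', fun l hl x hx => ?_⟩
  have e1 := e l hl.1 x hx.1
  have e2 := e' l hl.2 x hx.2
  beta_reduce at e1 e2 ⊢
  have e3 : K.b' x * (K.b l * sg K l x ^ 2) = (K.b' x * sg K l x) * (K.b l * sg K l x) := by ring
  rw [e3, e1, e2]
  ring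

/-- `E ≤ C (2 α² + δ Z²)` -/
theorem E_le (R : KRepZ (ε ⊕ ν) F V S K) [F.NeBot] (hD : R.D = Matrix.fromBlocks 0 0 0 D')
    (hD' : D'.PosDef) (ha : ∀ᶠ l in F, 0 < K.a l)
    (hx : Tendsto (fun l => K.x0 l / K.a l) F (𝓝 0)) :
    ∃ C : ℝ, 0 ≤ C ∧ ∀ δ : ℝ, 0 < δ → SosF F V (fun l x =>
      C * (2 * K.α l x ^ 2 + δ * K.Z l x ^ 2) - Ek R l x) := by
  obtain ⟨C, hC, h1, _⟩ := bd_E R hD hD' ha hx
  refine ⟨C, hC, fun δ hδ => ?_⟩
  exact (h1.add ((bb_le R hδ).smul hC)).congr' fun l x => by ring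

/-- the kernel equation -/
theorem S_eq' (R : KRepZ (ε ⊕ ν) F V S K) : EqF F V
    (fun l x => (R.ξ l ⬝ᵥ R.ξ l) * S l x) (fun l x => K.c' x * (Qk R l x - Ek R l x)) := by
  obtain ⟨A, hA, B, hB, e⟩ := R.S_eq
  refine ⟨A, hA, B, hB, fun l hl x hx => ?_⟩
  rw [e l hl x hx]
  beta_reduce
  congr 1
  unfold Qk Ek Mx
  rw [dot_mulVec_eq, dot_mulVec_eq, Finset.mul_sum, ← Finset.sum_sub_distrib]
  refine Finset.sum_congr rfl fun i _ => ?_
  rw [Finset.mul_sum, ← Finset.sum_sub_distrib]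
  refine Finset.sum_congr rfl fun j _ => ?_
  rw [Pn_apply]
  have e1 : DPn R.D R.A0 R.A1 R.H R.DH (K.a l / K.b l) (K.y0 x) 1 (K.b' x) (K.a' x / K.b' x) i j =
      K.y0 x * (1 : Matrix (ε ⊕ ν) (ε ⊕ ν) ℝ) i j + R.D i j + K.b' x * (GG R (sq K l) i j +
        sg K l x * DGs R.A1 R.H R.DH (sq K l) i j) := by
    simp [DPn, GG, sg, sq, sq']
    ring
  rw [e1]
  unfold ddG
  ring

/-- **Case (ii)** -/
theorem caseII (R : KRepZ (ε ⊕ ν) F V S K) [F.NeBot] (hD : R.D = Matrix.fromBlocks 0 0 0 D')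
    (hD' : D'.PosDef) (star : Star F V S K) (ha : ∀ᶠ l in F, 0 < K.a l)
    (hx : Tendsto (fun l => K.x0 l / K.a l) F (𝓝 0)) (h00 : R.ξ0 ⬝ᵥ (R.A0 *ᵥ R.ξ0) = 0)
    {n0 : ε ⊕ ν → ℝ} (hn : n0 ⬝ᵥ R.ξ0 = 0) (hn' : n0 ⬝ᵥ (R.A0 *ᵥ R.ξ0) ≠ 0) :
    SosF F V S := by
  obtain ⟨⟨_, Ct, hCt, dt⟩, ⟨_, Cz, hCz, dz⟩⟩ := dom_tZ R h00 hn hn'
  obtain ⟨C1, hC1, hE⟩ := E_le R hD hD' ha hx
  obtain ⟨c, hc, hstar⟩ := star
  have hα2 : SosF F V (fun l x => K.α l x ^ 2) := SosF.sq (fr_α K)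
  have hZ2 : SosF F V (fun l x => K.Z l x ^ 2) := SosF.sq (fr_Z K)
  have ht2 : SosF F V (fun l x => K.t l x ^ 2) := SosF.sq (fr_t K)
  -- P ≤ Q + 2α² + 2 s² Z²
  have hP : ∀ η : ℝ, 0 < η → SosF F V (fun l x => Qk R l x + 2 * K.α l x ^ 2 +
      η * K.Z l x ^ 2 - Pk R l x) := by
    intro η hη
    have hs : SosF F V (fun l (_ : X) => η / 2 - sq K l ^ 2) := by
      refine SosF.left ?_
      have := R.ts.pow 2
      simp only [ne_eq, OfNat.ofNat_ne_zero, not_false_eq_true, zero_pow] at this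
      filter_upwards [this.eventually_lt_const (show (0 : ℝ) < η / 2 by positivity)] with l hl
      exact sub_nonneg.2 hl.le
    have fs : FR (fun l x => sq K l * K.Z l x) := (FR.left _).mul (fr_Z K)
    refine ((SosF.sq ((fr_α K).add fs)).add ((hs.mul hZ2).smul (c := 2) (by norm_num))).congr ?_
    obtain ⟨A, hA, B, hB, e⟩ := b'sg_eq R
    refine ⟨A, hA, B, hB, fun l hl x hx' => ?_⟩
    have e1 := e l hl x hx'
    beta_reduce at e1 ⊢
    unfold Pk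
    rw [e1]; ring
  -- Z² ≤ C2 (Q + α²), t² ≤ C2 (Q + α²)
  have hZ3 : SosF F V (fun l x => 2 * Cz * Qk R l x + 4 * Cz * K.α l x ^ 2 - K.Z l x ^ 2) := by
    have h1 := (hP (1 / (2 * Cz)) (by positivity)).smul (c := Cz) hCz.le
    refine (((dz.add h1).smul (c := 2) (by norm_num))).congr' fun l x => ?_
    have e : Cz * (1 / (2 * Cz)) = 1 / 2 := by field_simp
    have e2 : Cz * (Qk R l x + 2 * K.α l x ^ 2 + 1 / (2 * Cz) * K.Z l x ^ 2 - Pk R l x) =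
        Cz * Qk R l x + 2 * Cz * K.α l x ^ 2 + (Cz * (1 / (2 * Cz))) * K.Z l x ^ 2 -
        Cz * Pk R l x := by ring
    rw [e2, e]; ring
  have ht3 : SosF F V (fun l x => (Ct + 2 * Ct * Cz) * Qk R l x +
      (2 * Ct + 4 * Ct * Cz) * K.α l x ^ 2 - K.t l x ^ 2) := by
    have h1 := (hP 1 one_pos).smul (c := Ct) hCt.le
    refine ((dt.add h1).add (hZ3.smul (c := Ct) hCt.le)).congr' fun l x => ?_
    ring
  -- a common constant
  set C2 : ℝ := 4 * Cz + 2 * Ct + 4 * Ct * Cz with hC2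
  have hC2p : 0 < C2 := by positivity
  have hQ := sosF_Qk R
  have hZ4 : SosF F V (fun l x => C2 * (Qk R l x + K.α l x ^ 2) - K.Z l x ^ 2) := by
    refine ((hZ3.add (hQ.smul (c := C2 - 2 * Cz) ?_)).add
      (hα2.smul (c := C2 - 4 * Cz) ?_)).congr' fun l x => ?_
    · rw [hC2]; nlinarith [mul_pos hCt hCz]
    · rw [hC2]; nlinarith [mul_pos hCt hCz]
    · ring
  have ht4 : SosF F V (fun l x => C2 * (Qk R l x + K.α l x ^ 2) - K.t l x ^ 2) := by
    refine ((ht3.add (hQ.smul (c := C2 - (Ct + 2 * Ct * Cz)) ?_)).add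
      (hα2.smul (c := C2 - (2 * Ct + 4 * Ct * Cz)) ?_)).congr' fun l x => ?_
    · rw [hC2]; nlinarith [mul_pos hCt hCz]
    · rw [hC2]; nlinarith [mul_pos hCt hCz]
    · ring
  -- W = |ξ|²/c'
  set W : L → X → ℝ := fun l x => (R.ξ l ⬝ᵥ R.ξ l) * (K.c' x)⁻¹ with hW
  have tξξ : Tendsto (fun l => R.ξ l ⬝ᵥ R.ξ l) F (𝓝 1) := by
    have : Tendsto (fun l => ∑ i, R.ξ l i * R.ξ l i) F (𝓝 (∑ i, R.ξ0 i * R.ξ0 i)) :=
      tendsto_finsetSum _ fun i _ => (R.tξ i).mul (R.tξ i)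
    have e : ∑ i, R.ξ0 i * R.ξ0 i = 1 := R.nrm0
    rw [e] at this
    exact this
  have tc : Tendsto (fun x => (K.c' x)⁻¹) V (𝓝 1) := by
    have := R.tc'.inv₀ one_ne_zero
    simpa using this
  have gW : GermFR F V W 1 := by
    have := (GermFR.mulfun tξξ tc : GermFR F V (fun l x => (R.ξ l ⬝ᵥ R.ξ l) * (K.c' x)⁻¹) (1 * 1))
    exact this.congr (fun _ _ => rfl) (by ring)
  have hWS : EqF F V (fun l x => Qk R l x - Ek R l x) (fun l x => W l x * S l x) := by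
    obtain ⟨A, hA, B, hB, e⟩ := S_eq' R
    have hc' : ∀ᶠ x in V, K.c' x ≠ 0 := R.tc'.eventually_ne one_ne_zero
    refine ⟨A, hA, B ∩ {x | K.c' x ≠ 0}, inter_mem hB hc', fun l hl x hx' => ?_⟩
    have e1 := e l hl x hx'.1
    have e2 : K.c' x ≠ 0 := hx'.2
    beta_reduce at e1 ⊢
    rw [hW]
    beta_reduce
    have e3 : (R.ξ l ⬝ᵥ R.ξ l) * (K.c' x)⁻¹ * S l x =
        (K.c' x)⁻¹ * ((R.ξ l ⬝ᵥ R.ξ l) * S l x) := by ring
    rw [e3, e1, ← mul_assoc, inv_mul_cancel₀ e2, one_mul]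
  -- Z² + t² ≤ 4 C2 W S + 2 A α²
  set δ1 : ℝ := 1 / (2 * (C1 * C2 + 1)) with hδ1
  have hδ1p : 0 < δ1 := by positivity
  have hδ1le : C2 * (C1 * δ1) ≤ 1 / 2 := by
    have : C2 * (C1 * δ1) = (C1 * C2) / (2 * (C1 * C2 + 1)) := by rw [hδ1]; ring
    rw [this, div_le_iff₀ (by positivity)]
    have : 0 ≤ C1 * C2 := by positivity
    linarith
  set A : ℝ := 2 * C2 * (2 * C1 + 1) with hA
  have hA0 : 0 ≤ A := by positivity
  have hE1 := hE δ1 hδ1p
  have hZ5 : SosF F V (fun l x => 2 * C2 * (Qk R l x - Ek R l x) + A * K.α l x ^ 2 -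
      K.Z l x ^ 2) := by
    have h1 := (hZ4.add (hE1.smul (c := C2) hC2p.le)).smul (c := 2) (by norm_num)
    have h2 := hZ2.smul (c := 2 * (1 / 2 - C2 * (C1 * δ1))) (by linarith)
    refine (h1.add h2).congr' fun l x => ?_
    rw [hA]; ring
  have ht5 : SosF F V (fun l x => 2 * C2 * (Qk R l x - Ek R l x) + A * K.α l x ^ 2 -
      K.t l x ^ 2) := by
    have h1 := ht4.add (hE1.smul (c := C2) hC2p.le)
    have h2 := hZ2.smul (c := (1 / 2 - C2 * (C1 * δ1))) (by linarith)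
    have h3 := hZ5.smul (c := 1 / 2) (by norm_num)
    refine ((h1.add h2).add h3).congr' fun l x => ?_
    rw [hA]; ring
  have hsum : SosF F V (fun l x => 4 * C2 * (W l x * S l x) + 2 * A * K.α l x ^ 2 -
      K.t l x ^ 2 - K.Z l x ^ 2) := by
    refine (hZ5.add ht5).congr ?_
    obtain ⟨A', hA', B', hB', e⟩ := hWS
    refine ⟨A', hA', B', hB', fun l hl x hx' => ?_⟩
    have e1 := e l hl x hx'
    beta_reduce at e1 ⊢
    rw [e1]; ring
  have hW0 : SosF F V W := GermFR.sosF gW one_pos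
  have hW2 : SosF F V (fun l x => 2 - W l x) :=
    GermFR.sosF ((GermFR.const (F := F) (G := V) 2).sub gW) (by norm_num)
  have hW1 : SosF F V (fun l x => W l x - 1 / 2) :=
    GermFR.sosF (gW.sub (GermFR.const (F := F) (G := V) (1 / 2))) (by norm_num)
  set δ : ℝ := c / (4 * (2 * A + 1)) with hδ
  have hδp : 0 < δ := by positivity
  have hδe : 4 * δ * A + 2 * δ = c / 2 := by
    rw [hδ]; field_simp; ring
  have hT : SosF F V (fun l x => K.t l x ^ 2 + K.Z l x ^ 2 + K.α l x ^ 2) :=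
    (ht2.add hZ2).add hα2
  have hSW : SosF F V (fun l x => W l x * S l x) := by
    have h1 := hW0.mul (hstar δ hδp)
    have h2 := (hW2.mul hT).smul (c := δ) hδp.le
    have h3 := (hW1.mul (ht2.add hα2)).smul (c := c) hc.le
    have h4 := hsum.smul (c := 2 * δ) (by positivity)
    have h5 := ht2.smul (c := c / 2) (by positivity)
    have h6 := ((((h1.add h2).add h3).add h4).add h5).smul (c := (1 + 8 * δ * C2)⁻¹)
      (by positivity)
    refine h6.congr' fun l x => ?_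
    have e1 : W l x * (S l x + δ * (K.t l x ^ 2 + K.Z l x ^ 2 + K.α l x ^ 2) -
        c * (K.t l x ^ 2 + K.α l x ^ 2)) +
        δ * ((2 - W l x) * (K.t l x ^ 2 + K.Z l x ^ 2 + K.α l x ^ 2)) +
        c * ((W l x - 1 / 2) * (K.t l x ^ 2 + K.α l x ^ 2)) +
        2 * δ * (4 * C2 * (W l x * S l x) + 2 * A * K.α l x ^ 2 - K.t l x ^ 2 - K.Z l x ^ 2) +
        c / 2 * K.t l x ^ 2 =
        (1 + 8 * δ * C2) * (W l x * S l x) +
          ((4 * δ * A + 2 * δ) - c / 2) * K.α l x ^ 2 := by ring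
    rw [e1, hδe, sub_self, zero_mul, add_zero, ← mul_assoc (1 + 8 * δ * C2)⁻¹,
      inv_mul_cancel₀ (by positivity), one_mul]
  have p1 : SosF F V (fun l (_ : X) => (R.ξ l ⬝ᵥ R.ξ l)⁻¹) :=
    SosF.left (Eventually.of_forall fun l => inv_nonneg.2 (dot_self_nonneg _))
  have p2 : SosF F V (fun (_ : L) x => K.c' x) :=
    SosF.right ((R.tc'.eventually_const_lt one_pos).mono fun x hx => hx.le)
  refine ((p1.mul p2).mul hSW).congr ?_
  refine EqF.of_eventually _ _ (tξξ.eventually_const_lt one_pos)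
    (R.tc'.eventually_const_lt one_pos) fun l x hl hx' => ?_
  have q1 : (R.ξ l ⬝ᵥ R.ξ l) ≠ 0 := ne_of_gt hl
  have q2 : K.c' x ≠ 0 := ne_of_gt hx'
  show S l x = (R.ξ l ⬝ᵥ R.ξ l)⁻¹ * K.c' x * (W l x * S l x)
  rw [hW]
  beta_reduce
  field_simp

end Vale.Agent.P256.H985
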