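import Vale.Agent.P256.H985.Imposs

/-! Case (C) (iii) of the local theorem is impossible. -/

set_option linter.all false

namespace Vale.Agent.P256.H985

open Filter Topology Matrix Asymptotics

variable {ε ν : Type*} [Fintype ε] [Fintype ν] [DecidableEq ε] [DecidableEq ν]

/-- one-sided data of case (C) in block form: `M = x0 + diag(0,D) + h G(s)` with
`G = [[A0 + s A1, Cᵀ],[C, N]]`, a point of the cone with its kernel vector `(ξE, ξN)`. -/
structure Side {L : Type*} (F : Filter L) (A0 A1 : Matrix ε ε ℝ) (D : Matrix ν ν ℝ)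
    (C0 : Matrix ν ε ℝ) (K : ℝ) (x0 h s : L → ℝ) (C : L → Matrix ν ε ℝ) (N : L → Matrix ν ν ℝ)
    (ξE : L → ε → ℝ) (ξN : L → ν → ℝ) (ξ0 : ε → ℝ) : Prop where
  h_pos : ∀ᶠ l in F, 0 < h l
  h_lim : Tendsto h F (𝓝 0)
  s_pos : ∀ᶠ l in F, 0 < s l
  s_lim : Tendsto s F (𝓝 0)
  x_lim : Tendsto (fun l => x0 l / (h l * s l)) F (𝓝 0)
  K_nn : 0 ≤ K
  C_lip : ∀ᶠ l in F, ∀ i j, |C l i j - C0 i j| ≤ K * s l
  N_bd : ∀ᶠ l in F, ∀ i j, |N l i j| ≤ K
  psd : ∀ᶠ l in F, ∀ u w, 0 ≤ x0 l * (u ⬝ᵥ u + w ⬝ᵥ w) + qf D w +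
    h l * (qf A0 u + s l * qf A1 u + 2 * (w ⬝ᵥ (C l *ᵥ u)) + qf (N l) w)
  E_lim : Tendsto ξE F (𝓝 ξ0)
  N_lim : Tendsto ξN F (𝓝 0)
  rowE : ∀ᶠ l in F, x0 l • ξE l + h l • (A0 *ᵥ ξE l + s l • (A1 *ᵥ ξE l) + (C l)ᵀ *ᵥ ξN l) = 0
  rowN : ∀ᶠ l in F, x0 l • ξN l + D *ᵥ ξN l + h l • (C l *ᵥ ξE l + N l *ᵥ ξN l) = 0

variable {L : Type*} {F : Filter L} {A0 A1 : Matrix ε ε ℝ} {D : Matrix ν ν ℝ}
    {C0 : Matrix ν ε ℝ} {K : ℝ} {x0 h s : L → ℝ} {C : L → Matrix ν ε ℝ} {N : L → Matrix ν ν ℝ}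
    {ξE : L → ε → ℝ} {ξN : L → ν → ℝ} {ξ0 : ε → ℝ}

theorem psd_EE (H : Side F A0 A1 D C0 K x0 h s C N ξE ξN ξ0) :
    ∀ᶠ l in F, ∀ u, 0 ≤ x0 l / h l * (u ⬝ᵥ u) + qf A0 u + s l * qf A1 u := by
  filter_upwards [H.psd, H.h_pos] with l h1 h2 u
  have h3 := h1 u 0
  have e1 : qf D 0 = 0 := by simp [qf]
  have e2 : qf (N l) 0 = 0 := by simp [qf]
  rw [e1, e2, zero_dotProduct, zero_dotProduct] at h3
  have h4 : x0 l / h l * (u ⬝ᵥ u) + qf A0 u + s l * qf A1 u =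
      (x0 l * (u ⬝ᵥ u) + h l * (qf A0 u + s l * qf A1 u)) / h l := by
    field_simp
    ring
  rw [h4]
  refine div_nonneg ?_ h2.le
  linarith

/-- `c s² ≤ x0/h` -/
theorem x0_lower [F.NeBot] (H : Side F A0 A1 D C0 K x0 h s C N ξE ξN ξ0) (h0 : A0.IsHermitian)
    (h1 : A1.IsHermitian) {v : ε → ℝ} (hv : A0 *ᵥ v = 0) (hv1 : qf A1 v = 0)
    (hne : A1 *ᵥ v ≠ 0) : ∃ c > 0, ∀ᶠ l in F, c * s l ^ 2 ≤ x0 l / h l := by
  obtain ⟨c, hc, δ, hδ, Hc⟩ := c3 h0 h1 hv hv1 hne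
  refine ⟨c, hc, ?_⟩
  have hs := H.s_lim.abs
  rw [abs_zero] at hs
  filter_upwards [psd_EE H, hs.eventually_lt_const hδ] with l h2 h3
  exact Hc (s l) (x0 l / h l) h3 h2

/-- `ξN = O(h ‖C ξE‖)` if `x0 ≥ 0` -/
theorem xiN_bound (H : Side F A0 A1 D C0 K x0 h s C N ξE ξN ξ0) (hD : D.PosDef)
    (hx : ∀ᶠ l in F, 0 ≤ x0 l) :
    ξN =O[F] (fun l => h l * ‖C l *ᵥ ξE l‖) := by
  obtain ⟨d, hd, hdl⟩ := posDef_lower hD
  set cν : ℝ := (Fintype.card ν : ℝ) with hcν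
  have hcν0 : 0 ≤ cν := by positivity
  have hsmall : ∀ᶠ l in F, h l * (cν * (cν * K)) < d / 2 := by
    have := H.h_lim.mul_const (cν * (cν * K))
    rw [zero_mul] at this
    exact this.eventually_lt_const (by positivity)
  refine IsBigO.of_bound (2 * cν / d) ?_
  filter_upwards [H.rowN, H.h_pos, hx, hsmall, H.N_bd] with l h1 h2 h3 h4 h5
  have e1 : x0 l * (ξN l ⬝ᵥ ξN l) + qf D (ξN l) +
      h l * (ξN l ⬝ᵥ (C l *ᵥ ξE l) + qf (N l) (ξN l)) = 0 := by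
    have := congrArg (fun w => ξN l ⬝ᵥ w) h1
    simp only [dotProduct_add, dotProduct_smul, dotProduct_zero, smul_eq_mul] at this
    simpa [qf] using this
  have e2 := hdl (ξN l)
  have e3 := dot_norm_le (ξN l) (C l *ᵥ ξE l)
  have e4 : |qf (N l) (ξN l)| ≤ cν * (cν * K) * ‖ξN l‖ ^ 2 := by
    refine (dot_norm_le _ _).trans ?_
    have := mulVec_norm_le H.K_nn h5 (ξN l)
    calc (Fintype.card ν : ℝ) * ‖ξN l‖ * ‖N l *ᵥ ξN l‖ ≤
        (Fintype.card ν : ℝ) * ‖ξN l‖ * ((Fintype.card ν : ℝ) * K * ‖ξN l‖) :=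
          mul_le_mul_of_nonneg_left this (by positivity)
      _ = _ := by rw [hcν]; ring
  have e5 := mul_nonneg h3 (dot_self_nonneg (ξN l))
  have e6 : d * ‖ξN l‖ ^ 2 ≤ h l * (cν * ‖ξN l‖ * ‖C l *ᵥ ξE l‖) + d / 2 * ‖ξN l‖ ^ 2 := by
    have a1 : -(h l * (ξN l ⬝ᵥ (C l *ᵥ ξE l))) ≤ h l * (cν * ‖ξN l‖ * ‖C l *ᵥ ξE l‖) := by
      rw [← mul_neg]
      exact mul_le_mul_of_nonneg_left ((neg_le_abs _).trans e3) h2.le
    have a2 : -(h l * qf (N l) (ξN l)) ≤ d / 2 * ‖ξN l‖ ^ 2 := by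
      rw [← mul_neg]
      calc h l * -qf (N l) (ξN l) ≤ h l * (cν * (cν * K) * ‖ξN l‖ ^ 2) :=
            mul_le_mul_of_nonneg_left ((neg_le_abs _).trans e4) h2.le
        _ = h l * (cν * (cν * K)) * ‖ξN l‖ ^ 2 := by ring
        _ ≤ d / 2 * ‖ξN l‖ ^ 2 := mul_le_mul_of_nonneg_right h4.le (by positivity)
    linarith
  rw [Real.norm_of_nonneg (by positivity)]
  rcases (norm_nonneg (ξN l)).eq_or_lt with h6 | h6
  · rw [← h6]; positivity
  · have e7 : d / 2 * ‖ξN l‖ ≤ h l * (cν * ‖C l *ᵥ ξE l‖) := by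
      have : d / 2 * ‖ξN l‖ * ‖ξN l‖ ≤ h l * (cν * ‖C l *ᵥ ξE l‖) * ‖ξN l‖ := by nlinarith
      exact le_of_mul_le_mul_right this h6
    rw [div_mul_eq_mul_div, le_div_iff₀ hd]
    linarith

/-- the `s`-small part of `C` -/
theorem C_sub_bound (H : Side F A0 A1 D C0 K x0 h s C N ξE ξN ξ0) {u : L → ε → ℝ}
    (hu : u =O[F] (fun _ => (1 : ℝ))) :
    (fun l => C l *ᵥ u l - C0 *ᵥ u l) =O[F] s := by
  have h1 : (fun l => C l *ᵥ u l - C0 *ᵥ u l) =O[F] (fun l => s l * ‖u l‖) := by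
    refine IsBigO.of_bound ((Fintype.card ε : ℝ) * K) ?_
    filter_upwards [H.C_lip, H.s_pos] with l h2 h3
    rw [← Matrix.sub_mulVec, Real.norm_of_nonneg (by positivity)]
    have := mulVec_norm_le (A := C l - C0) (mul_nonneg H.K_nn h3.le) (fun i j => by
      simpa using h2 i j) (u l)
    refine this.trans (le_of_eq (by ring))
  have h2 : (fun l => s l * ‖u l‖) =O[F] (fun l => s l * 1) :=
    (isBigO_refl s F).mul hu.norm_left
  simpa using h1.trans h2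

theorem CT_bound (H : Side F A0 A1 D C0 K x0 h s C N ξE ξN ξ0) :
    (fun l => (C l)ᵀ *ᵥ ξN l) =O[F] ξN := by
  obtain ⟨K', hK', hb⟩ : ∃ K' : ℝ, 0 ≤ K' ∧ ∀ i j, |C0 i j| ≤ K' := by
    refine ⟨∑ i, ∑ j, |C0 i j|, by positivity, fun i j => ?_⟩
    calc |C0 i j| ≤ ∑ j, |C0 i j| := Finset.single_le_sum (f := fun j => |C0 i j|)
          (fun _ _ => abs_nonneg _) (Finset.mem_univ j)
      _ ≤ _ := Finset.single_le_sum (f := fun i => ∑ j, |C0 i j|)
          (fun _ _ => Finset.sum_nonneg fun _ _ => abs_nonneg _) (Finset.mem_univ i)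
  refine IsBigO.of_bound ((Fintype.card ν : ℝ) * (K' + K)) ?_
  filter_upwards [H.C_lip, H.s_lim.eventually_lt_const one_pos] with l h1 h2
  refine mulVec_norm_le (add_nonneg hK' H.K_nn) (fun i j => ?_) (ξN l)
  rw [Matrix.transpose_apply]
  have h3 := h1 j i
  have h4 := hb j i
  have h5 : K * s l ≤ K * 1 := mul_le_mul_of_nonneg_left h2.le H.K_nn
  calc |C l j i| = |C0 j i + (C l j i - C0 j i)| := by ring_nf
    _ ≤ |C0 j i| + |C l j i - C0 j i| := abs_add_le _ _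
    _ ≤ _ := by linarith

/-- arithmetic of step (e) -/
theorem arith_e {x0 h s τ dm nm cm M U a1 Kn K5 : ℝ}
    (q1 : 0 ≤ x0 * (U + (h * τ) ^ 2 * M) + (h * τ) ^ 2 * dm +
      h * (0 + s * a1 + 2 * (-(h * τ) * cm) + (h * τ) ^ 2 * nm))
    (p2 : 0 < h) (p3 : 0 < s) (p4 : 0 ≤ x0) (p5 : h * (τ * Kn) < M / 4) (p6 : h < 1)
    (x1 : x0 ≤ h * s) (hτ : 0 < τ) (hτ1 : τ * dm ≤ M / 2) (hmm : 0 < M) (hU : 0 ≤ U)
    (hKn : 0 ≤ Kn) (e6 : |nm| ≤ Kn) (p9 : 3 / 4 * M < cm) (hK5 : K5 = U + τ ^ 2 * M) :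
    h * (τ * M / 4) ≤ (K5 + |a1|) * s := by
  have hK50 : 0 ≤ K5 := by rw [hK5]; positivity
  have b1 : x0 * (U + (h * τ) ^ 2 * M) ≤ h * (s * K5) := by
    have b2 : U + (h * τ) ^ 2 * M ≤ K5 := by
      have b3 : h ^ 2 * (τ ^ 2 * M) ≤ 1 * (τ ^ 2 * M) := by
        refine mul_le_mul_of_nonneg_right ?_ (by positivity)
        nlinarith
      have b4 : (h * τ) ^ 2 * M = h ^ 2 * (τ ^ 2 * M) := by ring
      rw [hK5, b4]; linarith
    calc x0 * (U + (h * τ) ^ 2 * M) ≤ x0 * K5 := mul_le_mul_of_nonneg_left b2 p4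
      _ ≤ h * s * K5 := mul_le_mul_of_nonneg_right x1 hK50
      _ = _ := by ring
  have b2 : h * (s * a1) ≤ h * (s * |a1|) :=
    mul_le_mul_of_nonneg_left (mul_le_mul_of_nonneg_left (le_abs_self _) p3.le) p2.le
  have hh : 0 ≤ h * (h * τ) := by positivity
  have b3 : h * (h * τ) * (τ * dm) ≤ h * (h * τ) * (M / 2) := mul_le_mul_of_nonneg_left hτ1 hh
  have b4 : h * (h * τ) * (h * (τ * nm)) ≤ h * (h * τ) * (M / 4) := by
    refine mul_le_mul_of_nonneg_left ?_ hh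
    calc h * (τ * nm) ≤ h * (τ * Kn) :=
          mul_le_mul_of_nonneg_left (mul_le_mul_of_nonneg_left
            ((le_abs_self _).trans e6) hτ.le) p2.le
      _ ≤ _ := p5.le
  have b5 : h * (h * τ) * (3 / 4 * M) ≤ h * (h * τ) * cm := mul_le_mul_of_nonneg_left p9.le hh
  have e7 : x0 * (U + (h * τ) ^ 2 * M) + (h * τ) ^ 2 * dm +
      h * (0 + s * a1 + 2 * (-(h * τ) * cm) + (h * τ) ^ 2 * nm) =
      x0 * (U + (h * τ) ^ 2 * M) + h * (h * τ) * (τ * dm) + h * (s * a1) -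
      2 * (h * (h * τ) * cm) + h * (h * τ) * (h * (τ * nm)) := by ring
  rw [e7] at q1
  have e8 : 0 ≤ h * (h * τ) * M := by positivity
  have b8 : h * (h * (τ * M / 4)) ≤ h * ((K5 + |a1|) * s) := by
    have c1 : h * (h * (τ * M / 4)) = h * (h * τ) * M / 4 := by ring
    have c2 : h * ((K5 + |a1|) * s) = h * (s * K5) + h * (s * |a1|) := by ring
    have c3 : h * (h * τ) * (M / 2) = h * (h * τ) * M / 2 := by ring
    have c4 : h * (h * τ) * (M / 4) = h * (h * τ) * M / 4 := by ring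
    have c5 : h * (h * τ) * (3 / 4 * M) = 3 / 4 * (h * (h * τ) * M) := by ring
    rw [c3] at b3; rw [c4] at b4; rw [c5] at b5; rw [c1, c2]
    linarith
  exact le_of_mul_le_mul_left b8 p2

/-- step (e): if `C0` does not kill `ker A0` then `h = O(s)` -/
theorem h_bigO (H : Side F A0 A1 D C0 K x0 h s C N ξE ξN ξ0) (hx : ∀ᶠ l in F, 0 ≤ x0 l)
    {u : ε → ℝ} (hu : A0 *ᵥ u = 0) (hm : C0 *ᵥ u ≠ 0) : h =O[F] s := by
  set m := C0 *ᵥ u with hmdef
  have hmm : 0 < m ⬝ᵥ m := dot_self_pos hm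
  set τ : ℝ := m ⬝ᵥ m / (2 * (1 + |qf D m|)) with hτ
  have hτpos : 0 < τ := by positivity
  have hτ1 : τ * qf D m ≤ m ⬝ᵥ m / 2 := by
    have h2 : τ * (1 + |qf D m|) = m ⬝ᵥ m / 2 := by
      rw [hτ]; field_simp
    nlinarith [le_abs_self (qf D m), abs_nonneg (qf D m)]
  have hCu : Tendsto (fun l => m ⬝ᵥ (C l *ᵥ u)) F (𝓝 (m ⬝ᵥ m)) := by
    have a1 : Tendsto (fun l => (C l *ᵥ u - C0 *ᵥ u) + C0 *ᵥ u) F (𝓝 (0 + C0 *ᵥ u)) :=
      ((C_sub_bound H (u := fun _ => u) (isBigO_const_const _ one_ne_zero _)).trans_tendsto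
        H.s_lim).add tendsto_const_nhds
    rw [zero_add] at a1
    have a2 : Continuous fun w : ν → ℝ => m ⬝ᵥ w := by
      unfold dotProduct; fun_prop
    refine ((a2.tendsto _).comp a1).congr fun l => ?_
    simp
  set Kn : ℝ := (Fintype.card ν : ℝ) * ‖m‖ * ((Fintype.card ν : ℝ) * K * ‖m‖) with hKn
  have hKn0 : 0 ≤ Kn := by have := H.K_nn; positivity
  have hsm : ∀ᶠ l in F, h l * (τ * Kn) < m ⬝ᵥ m / 4 := by
    have := H.h_lim.mul_const (τ * Kn)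
    rw [zero_mul] at this
    exact this.eventually_lt_const (by positivity)
  have hh1 : ∀ᶠ l in F, h l < 1 := H.h_lim.eventually_lt_const one_pos
  have hxs : ∀ᶠ l in F, x0 l / (h l * s l) < 1 := H.x_lim.eventually_lt_const one_pos
  set K5 : ℝ := u ⬝ᵥ u + τ ^ 2 * (m ⬝ᵥ m) with hK5
  have huu := dot_self_nonneg u
  have hK50 : 0 ≤ K5 := by positivity
  refine IsBigO.of_bound ((K5 + |qf A1 u|) / (τ * (m ⬝ᵥ m) / 4)) ?_
  filter_upwards [H.psd, H.h_pos, H.s_pos, hx, hsm, hh1, hxs, H.N_bd,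
    hCu.eventually_const_lt (show 3 / 4 * (m ⬝ᵥ m) < m ⬝ᵥ m by linarith)]
    with l p1 p2 p3 p4 p5 p6 p7 p8 p9
  have q1 := p1 u (-(h l * τ) • m)
  have e1 : qf A0 u = 0 := by unfold qf; rw [hu]; simp
  have e2 : qf D (-(h l * τ) • m) = (h l * τ) ^ 2 * qf D m := by rw [qf_smul]; ring
  have e3 : qf (N l) (-(h l * τ) • m) = (h l * τ) ^ 2 * qf (N l) m := by rw [qf_smul]; ring
  have e4 : (-(h l * τ) • m) ⬝ᵥ (C l *ᵥ u) = -(h l * τ) * (m ⬝ᵥ (C l *ᵥ u)) := by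
    rw [smul_dotProduct, smul_eq_mul]
  have e5 : (-(h l * τ) • m) ⬝ᵥ (-(h l * τ) • m) = (h l * τ) ^ 2 * (m ⬝ᵥ m) := by
    rw [smul_dotProduct, dotProduct_smul]
    simp only [smul_eq_mul]; ring
  rw [e1, e2, e3, e4, e5] at q1
  have e6 : |qf (N l) m| ≤ Kn := by
    refine (dot_norm_le _ _).trans ?_
    have := mulVec_norm_le H.K_nn p8 m
    exact mul_le_mul_of_nonneg_left this (by positivity)
  have x1 : x0 l ≤ h l * s l := by
    have := (div_lt_one (mul_pos p2 p3)).1 p7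
    exact this.le
  generalize hgD : qf D m = dm at *
  generalize hgN : qf (N l) m = nm at *
  generalize hgC : m ⬝ᵥ (C l *ᵥ u) = cm at *
  generalize hgM : m ⬝ᵥ m = M at *
  generalize hgU : u ⬝ᵥ u = U at *
  generalize hgA : qf A1 u = a1 at *
  rw [Real.norm_of_nonneg p2.le, Real.norm_of_nonneg p3.le, div_mul_eq_mul_div,
    le_div_iff₀ (by positivity)]
  exact arith_e q1 p2 p3 p4 p5 p6 x1 hτpos hτ1 hmm huu hKn0 e6 p9 hK5

/-- **C6**: case (iii) is impossible -/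
theorem caseIII [F.NeBot] (H : Side F A0 A1 D C0 K x0 h s C N ξE ξN ξ0) (hD : D.PosDef)
    (h0 : A0.IsHermitian) (h1 : A1.IsHermitian) {v : ε → ℝ} (hv : A0 *ᵥ v = 0)
    (hv1 : qf A1 v = 0) (hne : A1 *ᵥ v ≠ 0) (hξ0 : ξ0 ≠ 0) (k0 : A0 *ᵥ ξ0 = 0)
    (k1 : A1 *ᵥ ξ0 = 0) (k2 : C0 *ᵥ ξ0 = 0) : False := by
  obtain ⟨c, hc, hlow⟩ := x0_lower H h0 h1 hv hv1 hne
  have hx : ∀ᶠ l in F, 0 ≤ x0 l := by
    filter_upwards [hlow, H.h_pos] with l h2 h3
    have h4 : 0 ≤ x0 l / h l := le_trans (by positivity) h2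
    have := mul_nonneg h4 h3.le
    rwa [div_mul_cancel₀ _ h3.ne'] at this
  set Th : L → ℝ := fun l => ‖C l *ᵥ ξE l‖ with hTh
  have hN : ξN =O[F] (fun l => h l * Th l) := xiN_bound H hD hx
  have hE1 : ξE =O[F] (fun _ => (1 : ℝ)) := H.E_lim.isBigO_one ℝ
  -- (c) x0 = O(s h² Th)
  have hc1 : (fun l => x0 l * (ξ0 ⬝ᵥ ξE l)) =O[F] (fun l => h l * (s l * (h l * Th l))) := by
    have a1 : (fun l => x0 l * (ξ0 ⬝ᵥ ξE l)) =ᶠ[F]
        (fun l => -(h l * ((C l *ᵥ ξ0 - C0 *ᵥ ξ0) ⬝ᵥ ξN l))) := by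
      filter_upwards [H.rowE] with l h2
      have h3 := congrArg (fun w => ξ0 ⬝ᵥ w) h2
      simp only [dotProduct_add, dotProduct_smul, dotProduct_zero, smul_eq_mul] at h3
      have e1 : ξ0 ⬝ᵥ (A0 *ᵥ ξE l) = 0 := by rw [dot_swap h0, k0, dotProduct_zero]
      have e2 : ξ0 ⬝ᵥ (A1 *ᵥ ξE l) = 0 := by rw [dot_swap h1, k1, dotProduct_zero]
      have e3 : ξ0 ⬝ᵥ ((C l)ᵀ *ᵥ ξN l) = (C l *ᵥ ξ0 - C0 *ᵥ ξ0) ⬝ᵥ ξN l := by
        rw [k2, sub_zero, Matrix.mulVec_transpose, dotProduct_comm, ← Matrix.dotProduct_mulVec,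
          dotProduct_comm]
      rw [e1, e2, e3] at h3
      linarith
    refine a1.trans_isBigO ?_
    have a2 : (fun l => C l *ᵥ ξ0 - C0 *ᵥ ξ0) =O[F] s :=
      C_sub_bound H (u := fun _ => ξ0) (isBigO_const_const _ one_ne_zero _)
    have a3 : (fun l => (C l *ᵥ ξ0 - C0 *ᵥ ξ0) ⬝ᵥ ξN l) =O[F] (fun l => s l * (h l * Th l)) := by
      have a4 : (fun l => (C l *ᵥ ξ0 - C0 *ᵥ ξ0) ⬝ᵥ ξN l) =O[F]
          (fun l => ‖C l *ᵥ ξ0 - C0 *ᵥ ξ0‖ * ‖ξN l‖) := by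
        refine IsBigO.of_bound (Fintype.card ν : ℝ) (Eventually.of_forall fun l => ?_)
        rw [Real.norm_eq_abs, Real.norm_of_nonneg (mul_nonneg (norm_nonneg _) (norm_nonneg _)),
          ← mul_assoc]
        exact dot_norm_le _ _
      exact a4.trans (a2.norm_left.mul hN.norm_left)
    exact ((isBigO_refl h F).mul a3).neg_left
  have hq : 0 < ξ0 ⬝ᵥ ξ0 := dot_self_pos hξ0
  have hinner : Tendsto (fun l => ξ0 ⬝ᵥ ξE l) F (𝓝 (ξ0 ⬝ᵥ ξ0)) := by
    have : Continuous fun w : ε → ℝ => ξ0 ⬝ᵥ w := by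
      unfold dotProduct; fun_prop
    exact (this.tendsto ξ0).comp H.E_lim
  have hinv : (fun l => (ξ0 ⬝ᵥ ξE l)⁻¹) =O[F] (fun _ => (1 : ℝ)) :=
    (hinner.inv₀ hq.ne').isBigO_one ℝ
  have hx0 : x0 =O[F] (fun l => h l * (s l * (h l * Th l))) := by
    have a1 : x0 =ᶠ[F] (fun l => x0 l * (ξ0 ⬝ᵥ ξE l) * (ξ0 ⬝ᵥ ξE l)⁻¹) := by
      filter_upwards [hinner.eventually_const_lt hq] with l h2
      rw [mul_assoc, mul_inv_cancel₀ h2.ne', mul_one]
    refine a1.trans_isBigO ?_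
    simpa using hc1.mul hinv
  -- (c') x0/h = O(s h Th)
  have hxh : (fun l => x0 l / h l) =O[F] (fun l => s l * (h l * Th l)) := by
    have a1 := hx0.mul (isBigO_refl (fun l => (h l)⁻¹) F)
    refine a1.congr' (Eventually.of_forall fun l => (div_eq_mul_inv _ _).symm) ?_
    filter_upwards [H.h_pos] with l h2
    show h l * (s l * (h l * Th l)) * (h l)⁻¹ = s l * (h l * Th l)
    field_simp
  have hs2 : (fun l => s l ^ 2) =O[F] (fun l => x0 l / h l) := by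
    refine IsBigO.of_bound c⁻¹ ?_
    filter_upwards [hlow] with l h2
    have h3 : 0 ≤ x0 l / h l := le_trans (by positivity) h2
    rw [Real.norm_of_nonneg (by positivity), Real.norm_of_nonneg h3, inv_mul_eq_div,
      le_div_iff₀ hc]
    linarith
  -- (d) s = O(h Th)
  have hs1 : s =O[F] (fun l => h l * Th l) := by
    have a1 := (hs2.trans hxh).mul (isBigO_refl (fun l => (s l)⁻¹) F)
    refine a1.congr' ?_ ?_
    · filter_upwards [H.s_pos] with l h2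
      field_simp
    · filter_upwards [H.s_pos] with l h2
      field_simp
  have hTh0 : Tendsto Th F (𝓝 0) := by
    have a1 : Tendsto (fun l => (C l *ᵥ ξE l - C0 *ᵥ ξE l) + C0 *ᵥ ξE l) F (𝓝 (0 + 0)) := by
      refine Tendsto.add ?_ ?_
      · exact (C_sub_bound H hE1).trans_tendsto H.s_lim
      · have : Continuous fun w : ε → ℝ => C0 *ᵥ w := by fun_prop
        have a2 := (this.tendsto ξ0).comp H.E_lim
        simp only [k2] at a2
        exact a2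
    rw [add_zero] at a1
    have a2 := a1.norm
    rw [norm_zero] at a2
    refine a2.congr fun l => ?_
    simp [hTh]
  -- (e) C0 kills ker A0
  have hker : ∀ u, A0 *ᵥ u = 0 → C0 *ᵥ u = 0 := by
    intro u hu
    by_contra hm
    have hO : h =O[F] s := h_bigO H hx hu hm
    -- contradiction: h = O(h Th)
    have hO2 : h =O[F] (fun l => h l * Th l) := hO.trans hs1
    have hO3 : (fun l => h l * Th l) =o[F] h := by
      have := (isBigO_refl h F).mul_isLittleO ((isLittleO_one_iff ℝ).2 hTh0)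
      simpa using this
    have hO4 := hO2.trans_isLittleO hO3
    exact isLittleO_irrefl (H.h_pos.mono fun l hl => hl.ne').frequently hO4
  -- (f) Th = O(s)
  obtain ⟨K10, hK10, hK10b⟩ := ker_bound hker
  have hA0 : (fun l => A0 *ᵥ ξE l) =O[F] (fun l => s l + h l * Th l) := by
    have a1 : (fun l => A0 *ᵥ ξE l) =ᶠ[F] (fun l => -((x0 l / h l) • ξE l +
        s l • (A1 *ᵥ ξE l) + (C l)ᵀ *ᵥ ξN l)) := by
      filter_upwards [H.rowE, H.h_pos] with l h2 h3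
      have h4 := congrArg (fun w => (h l)⁻¹ • w) h2
      simp only [smul_add, smul_zero, smul_smul, inv_mul_cancel₀ h3.ne', one_smul] at h4
      rw [show (h l)⁻¹ * x0 l = x0 l / h l by rw [div_eq_mul_inv, mul_comm]] at h4
      rw [show (h l)⁻¹ * (h l * s l) = s l by field_simp] at h4
      have h5 : A0 *ᵥ ξE l + ((x0 l / h l) • ξE l + s l • (A1 *ᵥ ξE l) + (C l)ᵀ *ᵥ ξN l) = 0 := by
        rw [← h4]; abel
      exact eq_neg_of_add_eq_zero_left h5
    refine a1.trans_isBigO (IsBigO.neg_left ?_)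
    have b0 : s =O[F] (fun l => s l + h l * Th l) := by
      refine IsBigO.of_bound 1 ?_
      filter_upwards [H.s_pos, H.h_pos] with l h2 h3
      have h4 : 0 ≤ h l * Th l := mul_nonneg h3.le (norm_nonneg _)
      rw [Real.norm_of_nonneg h2.le, Real.norm_of_nonneg (by positivity)]
      linarith
    have b1 : (fun l => h l * Th l) =O[F] (fun l => s l + h l * Th l) := by
      refine IsBigO.of_bound 1 ?_
      filter_upwards [H.s_pos, H.h_pos] with l h2 h3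
      have h4 : 0 ≤ h l * Th l := mul_nonneg h3.le (norm_nonneg _)
      rw [Real.norm_of_nonneg h4, Real.norm_of_nonneg (by positivity)]
      linarith
    have hsO : s =O[F] (fun _ => (1 : ℝ)) := H.s_lim.isBigO_one ℝ
    refine IsBigO.add (IsBigO.add ?_ ?_) ?_
    · have c1 : (fun l => x0 l / h l) =O[F] (fun l => h l * Th l) := by
        have := hxh.trans (hsO.mul (isBigO_refl (fun l => h l * Th l) F))
        simpa using this
      have c2 := (c1.trans b1).smul hE1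
      simpa using c2
    · have c1 : (fun l => A1 *ᵥ ξE l) =O[F] (fun _ => (1 : ℝ)) := by
        have : Continuous fun w : ε → ℝ => A1 *ᵥ w := by fun_prop
        exact ((this.tendsto ξ0).comp H.E_lim).isBigO_one ℝ
      have c2 := b0.smul c1
      simpa using c2
    · exact ((CT_bound H).trans hN).trans b1
  have hThO : Th =O[F] (fun l => s l + h l * Th l) := by
    have a1 : (fun l => C0 *ᵥ ξE l) =O[F] (fun l => s l + h l * Th l) :=
      (IsBigO.of_bound K10 (Eventually.of_forall fun l => hK10b (ξE l))).trans hA0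
    have a2 : (fun l => C l *ᵥ ξE l - C0 *ᵥ ξE l) =O[F] (fun l => s l + h l * Th l) := by
      refine (C_sub_bound H hE1).trans ?_
      refine IsBigO.of_bound 1 ?_
      filter_upwards [H.s_pos, H.h_pos] with l h2 h3
      have h4 : 0 ≤ h l * Th l := mul_nonneg h3.le (norm_nonneg _)
      rw [Real.norm_of_nonneg h2.le, Real.norm_of_nonneg (by positivity)]
      linarith
    have a3 := (a2.add a1).norm_left
    refine a3.congr_left fun l => ?_
    simp [hTh]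
  have hThs : Th =O[F] s := by
    have a1 : (fun l => h l * Th l) =o[F] Th := by
      have := ((isLittleO_one_iff ℝ).2 H.h_lim).mul_isBigO (isBigO_refl Th F)
      simpa using this
    -- Th ≤ K (s + h Th) and h Th = o(Th)
    obtain ⟨K, hK⟩ := hThO.bound
    have a2 := a1.def (show (0 : ℝ) < 1 / (2 * (|K| + 1)) by positivity)
    refine IsBigO.of_bound (2 * (|K| + 1)) ?_
    filter_upwards [hK, a2, H.s_pos, H.h_pos] with l h2 h3 h4 h5
    have h6 : 0 ≤ Th l := norm_nonneg _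
    have h7 : 0 ≤ h l * Th l := mul_nonneg h5.le h6
    rw [Real.norm_of_nonneg h6, Real.norm_of_nonneg (by positivity)] at h2
    rw [Real.norm_of_nonneg h7, Real.norm_of_nonneg h6] at h3
    rw [Real.norm_of_nonneg h6, Real.norm_of_nonneg h4.le]
    have h8 : K * (s l + h l * Th l) ≤ (|K| + 1) * (s l + h l * Th l) :=
      mul_le_mul_of_nonneg_right (by linarith [le_abs_self K]) (by positivity)
    have h9 : (|K| + 1) * (h l * Th l) ≤ Th l / 2 := by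
      have := mul_le_mul_of_nonneg_left h3 (show 0 ≤ |K| + 1 by positivity)
      have e : (|K| + 1) * (1 / (2 * (|K| + 1)) * Th l) = Th l / 2 := by
        field_simp
      rw [e] at this
      exact this
    nlinarith
  -- (g) contradiction
  have hfin : (fun l => s l ^ 2) =O[F] (fun l => s l * (h l * s l)) := by
    refine (hs2.trans hxh).trans ?_
    exact (isBigO_refl s F).mul ((isBigO_refl h F).mul hThs)
  have hlit : (fun l => s l * (h l * s l)) =o[F] (fun l => s l ^ 2) := by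
    have := ((isLittleO_one_iff ℝ).2 H.h_lim).mul_isBigO (isBigO_refl (fun l => s l ^ 2) F)
    refine (this.congr (fun l => ?_) fun l => ?_)
    · ring
    · ring
  exact isLittleO_irrefl (H.s_pos.mono fun l hl => (pow_pos hl 2).ne').frequently
    (hfin.trans_isLittleO hlit)

end Vale.Agent.P256.H985
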