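import Vale.Agent.P256.H985.OneSided
import Vale.Agent.P256.H326.Ultra

/-! Case (C): the y-side (C5) and the impossible case (iii) (C6). -/

set_option linter.all false

namespace Vale.Agent.P256.H985

open Filter Topology Matrix Asymptotics

section Norms

variable {ε ν : Type*} [Fintype ε] [Fintype ν]

theorem dot_norm_le (u v : ε → ℝ) : |u ⬝ᵥ v| ≤ (Fintype.card ε : ℝ) * ‖u‖ * ‖v‖ := by
  calc |u ⬝ᵥ v| ≤ ∑ i, |u i * v i| := Finset.abs_sum_le_sum_abs _ _
    _ ≤ ∑ _i : ε, ‖u‖ * ‖v‖ := by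
        refine Finset.sum_le_sum fun i _ => ?_
        rw [abs_mul]
        exact mul_le_mul (norm_le_pi_norm u i) (norm_le_pi_norm v i) (abs_nonneg _) (norm_nonneg _)
    _ = _ := by rw [Finset.sum_const, Finset.card_univ, nsmul_eq_mul]; ring

theorem mulVec_norm_le {A : Matrix ν ε ℝ} {K : ℝ} (hK : 0 ≤ K) (hA : ∀ i j, |A i j| ≤ K)
    (v : ε → ℝ) : ‖A *ᵥ v‖ ≤ (Fintype.card ε : ℝ) * K * ‖v‖ := by
  rw [pi_norm_le_iff_of_nonneg (by positivity)]
  intro i
  rw [Real.norm_eq_abs]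
  calc |(A *ᵥ v) i| ≤ ∑ j, |A i j * v j| := Finset.abs_sum_le_sum_abs _ _
    _ ≤ ∑ _j : ε, K * ‖v‖ := by
        refine Finset.sum_le_sum fun j _ => ?_
        rw [abs_mul]
        exact mul_le_mul (hA i j) (norm_le_pi_norm v j) (abs_nonneg _) hK
    _ = _ := by rw [Finset.sum_const, Finset.card_univ, nsmul_eq_mul]; ring

theorem mulVec_bound (A : Matrix ν ε ℝ) : ∃ K : ℝ, 0 ≤ K ∧ ∀ v, ‖A *ᵥ v‖ ≤ K * ‖v‖ := by
  classical
  refine ⟨(Fintype.card ε : ℝ) * ∑ i, ∑ j, |A i j|, by positivity, fun v => ?_⟩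
  refine mulVec_norm_le (by positivity) (fun i j => ?_) v
  calc |A i j| ≤ ∑ j, |A i j| := Finset.single_le_sum (f := fun j => |A i j|)
        (fun _ _ => abs_nonneg _) (Finset.mem_univ j)
    _ ≤ _ := Finset.single_le_sum (f := fun i => ∑ j, |A i j|)
        (fun _ _ => Finset.sum_nonneg fun _ _ => abs_nonneg _) (Finset.mem_univ i)

theorem posDef_lower [DecidableEq ν] {D : Matrix ν ν ℝ} (hD : D.PosDef) :
    ∃ d : ℝ, 0 < d ∧ ∀ w, d * ‖w‖ ^ 2 ≤ qf D w := by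
  by_cases hne : (Metric.sphere (0 : ν → ℝ) 1).Nonempty
  · obtain ⟨w0, hw0, hmin⟩ := (isCompact_sphere (0 : ν → ℝ) 1).exists_isMinOn hne
      (continuous_qf D).continuousOn
    have hw0' : w0 ≠ 0 := by
      rintro rfl; simp at hw0
    have hpos : 0 < qf D w0 := by
      have := hD.dotProduct_mulVec_pos hw0'
      simpa [qf] using this
    refine ⟨qf D w0, hpos, fun w => ?_⟩
    by_cases hw : w = 0
    · subst hw; simp [qf]
    · have hn : 0 < ‖w‖ := norm_pos_iff.2 hw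
      have h1 : ‖w‖⁻¹ • w ∈ Metric.sphere (0 : ν → ℝ) 1 := by
        rw [mem_sphere_zero_iff_norm, norm_smul, norm_inv, norm_norm, inv_mul_cancel₀ hn.ne']
      have h2 : qf D w0 ≤ qf D (‖w‖⁻¹ • w) := hmin h1
      rw [qf_smul] at h2
      have h3 : ‖w‖⁻¹ ^ 2 * qf D w * ‖w‖ ^ 2 = qf D w := by
        field_simp
      calc qf D w0 * ‖w‖ ^ 2 ≤ ‖w‖⁻¹ ^ 2 * qf D w * ‖w‖ ^ 2 :=
            mul_le_mul_of_nonneg_right h2 (by positivity)
        _ = qf D w := h3
  · refine ⟨1, one_pos, fun w => ?_⟩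
    have hw : w = 0 := by
      by_contra hw
      apply hne
      have hn : 0 < ‖w‖ := norm_pos_iff.2 hw
      refine ⟨‖w‖⁻¹ • w, ?_⟩
      rw [mem_sphere_zero_iff_norm, norm_smul, norm_inv, norm_norm, inv_mul_cancel₀ hn.ne']
    subst hw; simp [qf]

/-- if `ker A ⊆ ker C` then `‖C u‖ ≤ K ‖A u‖` -/
theorem ker_bound {A : Matrix ε ε ℝ} {C : Matrix ν ε ℝ} (h : ∀ u, A *ᵥ u = 0 → C *ᵥ u = 0) :
    ∃ K : ℝ, 0 ≤ K ∧ ∀ u, ‖C *ᵥ u‖ ≤ K * ‖A *ᵥ u‖ := by
  classical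
  have hker : LinearMap.ker A.mulVecLin ≤ LinearMap.ker C.mulVecLin := by
    intro u hu
    rw [LinearMap.mem_ker] at hu ⊢
    exact h u hu
  obtain ⟨B, hB⟩ := LinearMap.exists_leftInverse_of_injective
    ((LinearMap.ker A.mulVecLin).liftQ A.mulVecLin le_rfl) (Submodule.ker_liftQ_eq_bot' _ _ rfl)
  let Cq := (LinearMap.ker A.mulVecLin).liftQ C.mulVecLin hker
  let T : (ε → ℝ) →ₗ[ℝ] (ν → ℝ) := Cq.comp B
  have hT : ∀ u, T (A *ᵥ u) = C *ᵥ u := by
    intro u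
    have h1 : B (A *ᵥ u) = (LinearMap.ker A.mulVecLin).mkQ u := by
      have := LinearMap.congr_fun hB ((LinearMap.ker A.mulVecLin).mkQ u)
      simpa using this
    show Cq (B (A *ᵥ u)) = _
    rw [h1]
    simp [Cq]
  obtain ⟨K, hK, hb⟩ := mulVec_bound (LinearMap.toMatrix' T)
  refine ⟨K, hK, fun u => ?_⟩
  have h2 := hb (A *ᵥ u)
  rw [LinearMap.toMatrix'_mulVec, hT] at h2
  exact h2

end Norms

section C5

variable {ι : Type*} [Fintype ι] [DecidableEq ι] {A0 A1 : Matrix ι ι ℝ}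

/-- **C5**: directions in the plane `Π` -/
theorem c5 {X : Type*} {V : Ultrafilter X} (h0 : A0.PosSemidef) (h1 : A1.IsHermitian)
    (hW : ∀ v, A0 *ᵥ v = 0 → 0 ≤ qf A1 v) {v : ι → ℝ} (hv : A0 *ᵥ v = 0)
    (hv1 : qf A1 v = 0) (hne : A1 *ᵥ v ≠ 0) {y0 h a : X → ℝ}
    (hpsd : ∀ᶠ x in (V : Filter X), ∀ u, 0 ≤ y0 x * (u ⬝ᵥ u) + h x * qf A0 u + a x * qf A1 u)
    (hpos : ∀ᶠ x in (V : Filter X), 0 < |h x| + |a x|)
    (hy : Tendsto (fun x => y0 x / (|h x| + |a x|)) (V : Filter X) (𝓝 0)) :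
    (∀ᶠ x in (V : Filter X), 0 < h x) ∧ Tendsto (fun x => a x / h x) (V : Filter X) (𝓝 0) ∧
      Tendsto (fun x => y0 x / h x) (V : Filter X) (𝓝 0) := by
  obtain ⟨hh, -, hhl⟩ := H326.exists_tendsto V (a := fun x => h x / (|h x| + |a x|)) (c := 1) (by
    filter_upwards [hpos] with x hx
    rw [abs_div, abs_of_pos hx, div_le_one hx]
    linarith [abs_nonneg (a x)])
  obtain ⟨aa, -, aal⟩ := H326.exists_tendsto V (a := fun x => a x / (|h x| + |a x|)) (c := 1) (by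
    filter_upwards [hpos] with x hx
    rw [abs_div, abs_of_pos hx, div_le_one hx]
    linarith [abs_nonneg (h x)])
  have hlim : ∀ u, 0 ≤ hh * qf A0 u + aa * qf A1 u := by
    intro u
    have t1 : Tendsto (fun x => y0 x / (|h x| + |a x|) * (u ⬝ᵥ u) +
        h x / (|h x| + |a x|) * qf A0 u + a x / (|h x| + |a x|) * qf A1 u) (V : Filter X)
        (𝓝 (0 * (u ⬝ᵥ u) + hh * qf A0 u + aa * qf A1 u)) :=
      ((hy.mul_const _).add (hhl.mul_const _)).add (aal.mul_const _)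
    have t2 := ge_of_tendsto t1 (by
      filter_upwards [hpos, hpsd] with x hx hx2
      have h3 := hx2 u
      have h4 : y0 x / (|h x| + |a x|) * (u ⬝ᵥ u) +
        h x / (|h x| + |a x|) * qf A0 u + a x / (|h x| + |a x|) * qf A1 u =
        (y0 x * (u ⬝ᵥ u) + h x * qf A0 u + a x * qf A1 u) / (|h x| + |a x|) := by
        field_simp
      rw [h4]
      exact div_nonneg h3 hx.le)
    simpa using t2
  obtain ⟨ha0, hh0⟩ := c4 h0 h1 hW hv hv1 hne hlim
  have hsum : |hh| + |aa| = 1 := by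
    have t1 : Tendsto (fun x => |h x / (|h x| + |a x|)| + |a x / (|h x| + |a x|)|)
        (V : Filter X) (𝓝 (|hh| + |aa|)) := hhl.abs.add aal.abs
    have t2 : Tendsto (fun x => |h x / (|h x| + |a x|)| + |a x / (|h x| + |a x|)|)
        (V : Filter X) (𝓝 1) := by
      refine tendsto_const_nhds.congr' ?_
      filter_upwards [hpos] with x hx
      rw [abs_div, abs_div, abs_of_pos hx, ← add_div, div_self hx.ne']
    exact tendsto_nhds_unique t1 t2
  have hh1 : hh = 1 := by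
    rw [ha0, abs_zero, add_zero, abs_of_nonneg hh0] at hsum
    exact hsum
  subst hh1
  subst ha0
  have hhpos : ∀ᶠ x in (V : Filter X), 0 < h x := by
    filter_upwards [hhl.eventually_const_lt (show (0 : ℝ) < 1 by norm_num), hpos] with x h3 h4
    have := mul_pos h3 h4
    rwa [div_mul_cancel₀ _ h4.ne'] at this
  refine ⟨hhpos, ?_, ?_⟩
  · have t1 := aal.div hhl (by norm_num)
    rw [zero_div] at t1
    refine t1.congr' ?_
    filter_upwards [hpos, hhpos] with x h3 h4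
    show a x / (|h x| + |a x|) / (h x / (|h x| + |a x|)) = a x / h x
    field_simp
  · have t1 := hy.div hhl (by norm_num)
    rw [zero_div] at t1
    refine t1.congr' ?_
    filter_upwards [hpos, hhpos] with x h3 h4
    show y0 x / (|h x| + |a x|) / (h x / (|h x| + |a x|)) = y0 x / h x
    field_simp

end C5

end Vale.Agent.P256.H985
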