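import Vale.Agent.P256.H985.Blocks
import Vale.Agent.P256.H387.Herm

/-! Kernel calculus for case (C): linear two-sided bounds, first and second differences of `G`,
the error term, the rows of `M(y) ξ`. -/

set_option linter.all false

namespace Vale.Agent.P256.H985

open Filter Topology Matrix Vale.Agent.P256 Vale.Agent.P256.H326 Vale.Agent.P256.H387
open Vale.Agent.P256.H201 (germ_fr germ_bdd germ_small)

/-! ### linear two-sided bounds -/

section Bd

variable {L X : Type*} {F : Filter L} {V : Filter X}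

/-- `±r ≤ C Q` -/
def Bd (F : Filter L) (V : Filter X) (r Q : L → X → ℝ) : Prop :=
  ∃ C : ℝ, 0 ≤ C ∧ SosF F V (fun l x => C * Q l x - r l x) ∧
    SosF F V (fun l x => C * Q l x + r l x)

variable {r r' Q Q' : L → X → ℝ}

theorem Bd.congr (H : Bd F V r Q) (e : EqF F V r' r) : Bd F V r' Q := by
  obtain ⟨C, hC, h1, h2⟩ := H
  exact ⟨C, hC, h1.congr (H201.EqF.comb2 (fun a b => C * a - b) (EqF.refl Q) e),
    h2.congr (H201.EqF.comb2 (fun a b => C * a + b) (EqF.refl Q) e)⟩

theorem Bd.congr' (H : Bd F V r Q) (e : ∀ l x, r' l x = r l x) : Bd F V r' Q := by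
  have : r' = r := funext fun l => funext fun x => e l x
  rw [this]; exact H

theorem Bd.zero (hQ : SosF F V Q) : Bd F V (fun _ _ => 0) Q :=
  ⟨1, zero_le_one, hQ.congr' fun l x => by ring, hQ.congr' fun l x => by ring⟩

theorem Bd.neg (H : Bd F V r Q) : Bd F V (fun l x => -r l x) Q := by
  obtain ⟨C, hC, h1, h2⟩ := H
  exact ⟨C, hC, h2.congr' fun l x => by ring, h1.congr' fun l x => by ring⟩

theorem Bd.add (H : Bd F V r Q) (H' : Bd F V r' Q) : Bd F V (fun l x => r l x + r' l x) Q := by
  obtain ⟨C, hC, h1, h2⟩ := H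
  obtain ⟨C', hC', h1', h2'⟩ := H'
  exact ⟨C + C', by positivity, (h1.add h1').congr' fun l x => by ring,
    (h2.add h2').congr' fun l x => by ring⟩

theorem Bd.sum {ι : Type*} (s : Finset ι) {r : ι → L → X → ℝ} (hQ : SosF F V Q)
    (H : ∀ i ∈ s, Bd F V (r i) Q) : Bd F V (fun l x => ∑ i ∈ s, r i l x) Q := by
  classical
  induction s using Finset.induction_on with
  | empty => exact (Bd.zero hQ).congr' fun l x => by simp
  | insert i s hi ih =>
    refine ((H i (Finset.mem_insert_self i s)).add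
      (ih fun j hj => H j (Finset.mem_insert_of_mem hj))).congr' fun l x => ?_
    rw [Finset.sum_insert hi]

/-- multiplication by a sum of squares on both sides -/
theorem Bd.smul_sos {w : L → X → ℝ} (hw : SosF F V w) (H : Bd F V r Q) :
    Bd F V (fun l x => w l x * r l x) (fun l x => w l x * Q l x) := by
  obtain ⟨C, hC, h1, h2⟩ := H
  exact ⟨C, hC, (hw.mul h1).congr' fun l x => by ring, (hw.mul h2).congr' fun l x => by ring⟩

theorem Bd.left (hQ : SosF F V Q) (H : Bd F V r Q) {a : L → ℝ} {B : ℝ}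
    (ha : ∀ᶠ l in F, |a l| ≤ B) : Bd F V (fun l x => a l * r l x) Q := by
  obtain ⟨C, hC, h1, h2⟩ := H
  by_cases hB : 0 ≤ B
  · have p1 : SosF F V (fun l (_ : X) => max (a l) 0) :=
      SosF.left (Eventually.of_forall fun l => le_max_right _ _)
    have p2 : SosF F V (fun l (_ : X) => max (-a l) 0) :=
      SosF.left (Eventually.of_forall fun l => le_max_right _ _)
    have p3 : SosF F V (fun l (_ : X) => B - |a l|) :=
      SosF.left (ha.mono fun l hl => by linarith)
    have e : ∀ l, max (a l) 0 - max (-a l) 0 = a l := by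
      intro l
      rcases le_total (a l) 0 with h | h
      · rw [max_eq_right h, max_eq_left (by linarith)]; ring
      · rw [max_eq_left h, max_eq_right (by linarith)]; ring
    have e' : ∀ l, max (a l) 0 + max (-a l) 0 = |a l| := by
      intro l
      rcases le_total (a l) 0 with h | h
      · rw [max_eq_right h, max_eq_left (by linarith), abs_of_nonpos h]; ring
      · rw [max_eq_left h, max_eq_right (by linarith), abs_of_nonneg h]; ring
    refine ⟨C * B, by positivity, ?_, ?_⟩
    · refine (((p1.mul h1).add (p2.mul h2)).add ((p3.mul hQ).smul hC)).congr' fun l x => ?_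
      have h3 := e l
      have h4 := e' l
      have : max (a l) 0 * (C * Q l x - r l x) + max (-a l) 0 * (C * Q l x + r l x) +
          C * ((B - |a l|) * Q l x) = (max (a l) 0 + max (-a l) 0) * (C * Q l x) -
          (max (a l) 0 - max (-a l) 0) * r l x + C * ((B - |a l|) * Q l x) := by ring
      rw [this, h3, h4]; ring
    · refine (((p1.mul h2).add (p2.mul h1)).add ((p3.mul hQ).smul hC)).congr' fun l x => ?_
      have h3 := e l
      have h4 := e' l
      have : max (a l) 0 * (C * Q l x + r l x) + max (-a l) 0 * (C * Q l x - r l x) +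
          C * ((B - |a l|) * Q l x) = (max (a l) 0 + max (-a l) 0) * (C * Q l x) +
          (max (a l) 0 - max (-a l) 0) * r l x + C * ((B - |a l|) * Q l x) := by ring
      rw [this, h3, h4]; ring
  · have hF : ∀ᶠ l in F, False := ha.mono fun l hl => hB ((abs_nonneg _).trans hl)
    have hz : ∀ g : L → X → ℝ, SosF F V g := by
      intro g
      refine SosF.zero.congr (EqF.of_eventually (fun _ => False) (fun _ => True) hF (by simp)
        fun l x hl _ => hl.elim)
    exact ⟨0, le_rfl, hz _, hz _⟩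

theorem Bd.right (hQ : SosF F V Q) (H : Bd F V r Q) {a : X → ℝ} {B : ℝ}
    (ha : ∀ᶠ x in V, |a x| ≤ B) : Bd F V (fun l x => a x * r l x) Q := by
  obtain ⟨C, hC, h1, h2⟩ := H
  by_cases hB : 0 ≤ B
  · have p1 : SosF F V (fun (_ : L) x => max (a x) 0) :=
      SosF.right (Eventually.of_forall fun l => le_max_right _ _)
    have p2 : SosF F V (fun (_ : L) x => max (-a x) 0) :=
      SosF.right (Eventually.of_forall fun l => le_max_right _ _)
    have p3 : SosF F V (fun (_ : L) x => B - |a x|) :=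
      SosF.right (ha.mono fun l hl => by linarith)
    have e : ∀ l, max (a l) 0 - max (-a l) 0 = a l := by
      intro l
      rcases le_total (a l) 0 with h | h
      · rw [max_eq_right h, max_eq_left (by linarith)]; ring
      · rw [max_eq_left h, max_eq_right (by linarith)]; ring
    have e' : ∀ l, max (a l) 0 + max (-a l) 0 = |a l| := by
      intro l
      rcases le_total (a l) 0 with h | h
      · rw [max_eq_right h, max_eq_left (by linarith), abs_of_nonpos h]; ring
      · rw [max_eq_left h, max_eq_right (by linarith), abs_of_nonneg h]; ring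
    refine ⟨C * B, by positivity, ?_, ?_⟩
    · refine (((p1.mul h1).add (p2.mul h2)).add ((p3.mul hQ).smul hC)).congr' fun l x => ?_
      have h3 := e x
      have h4 := e' x
      have : max (a x) 0 * (C * Q l x - r l x) + max (-a x) 0 * (C * Q l x + r l x) +
          C * ((B - |a x|) * Q l x) = (max (a x) 0 + max (-a x) 0) * (C * Q l x) -
          (max (a x) 0 - max (-a x) 0) * r l x + C * ((B - |a x|) * Q l x) := by ring
      rw [this, h3, h4]; ring
    · refine (((p1.mul h2).add (p2.mul h1)).add ((p3.mul hQ).smul hC)).congr' fun l x => ?_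
      have h3 := e x
      have h4 := e' x
      have : max (a x) 0 * (C * Q l x + r l x) + max (-a x) 0 * (C * Q l x - r l x) +
          C * ((B - |a x|) * Q l x) = (max (a x) 0 + max (-a x) 0) * (C * Q l x) +
          (max (a x) 0 - max (-a x) 0) * r l x + C * ((B - |a x|) * Q l x) := by ring
      rw [this, h3, h4]; ring
  · have hF : ∀ᶠ x in V, False := ha.mono fun l hl => hB ((abs_nonneg _).trans hl)
    have hz : ∀ g : L → X → ℝ, SosF F V g := by
      intro g
      refine SosF.zero.congr (EqF.of_eventually (fun _ => True) (fun _ => False) (by simp) hF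
        fun l x _ hx => hx.elim)
    exact ⟨0, le_rfl, hz _, hz _⟩

end Bd

/-! ### first and second differences of `G` -/

section Diff

variable {ε ν : Type} [Fintype ε] [Fintype ν] [DecidableEq ε] [DecidableEq ν]
variable {L X : Type} {F : Filter L} {V : Filter X} {S : L → X → ℝ} {K : Crd L X}

/-- the quotient coordinate of the second side -/
noncomputable def sq' (K : Crd L X) (x : X) : ℝ := K.a' x / K.b' x

/-- `s' - s` -/
noncomputable def sg (K : Crd L X) (l : L) (x : X) : ℝ := sq' K x - sq K l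

theorem fr_sg (K : Crd L X) : FR (sg K) := (FR.right _).sub (FR.left _)

/-- first difference of `G` -/
noncomputable def dG (R : KRepZ (ε ⊕ ν) F V S K) (i j : ε ⊕ ν) (l : L) (x : X) : ℝ :=
  GG R (sq' K x) i j - GG R (sq K l) i j

/-- second difference of `G` -/
noncomputable def ddG (R : KRepZ (ε ⊕ ν) F V S K) (i j : ε ⊕ ν) (l : L) (x : X) : ℝ :=
  GG R (sq' K x) i j - GG R (sq K l) i j - sg K l x * DGs R.A1 R.H R.DH (sq K l) i j

theorem fr_dG (R : KRepZ (ε ⊕ ν) F V S K) (i j : ε ⊕ ν) : FR (dG R i j) :=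
  (FR.right (fun x => GG R (sq' K x) i j)).sub (FR.left (fun l => GG R (sq K l) i j))

theorem DGs_apply (R : KRepZ (ε ⊕ ν) F V S K) (s : ℝ) (i j : ε ⊕ ν) :
    DGs R.A1 R.H R.DH s i j = R.A1 i j + 2 * s * R.H s i j + s ^ 2 * R.DH s i j := by
  simp [DGs]

theorem tH (R : KRepZ (ε ⊕ ν) F V S K) (i j : ε ⊕ ν) :
    Tendsto (fun l => R.H (sq K l) i j) F (𝓝 (R.H 0 i j)) := (R.nk i j).cont.tendsto.comp R.ts

theorem tDH (R : KRepZ (ε ⊕ ν) F V S K) (i j : ε ⊕ ν) :
    Tendsto (fun l => R.DH (sq K l) i j) F (𝓝 (R.DH 0 i j)) := (R.nk i j).cont'.tendsto.comp R.ts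

theorem dom_dG (R : KRepZ (ε ⊕ ν) F V S K) (i j : ε ⊕ ν) :
    H201.Dom F V (dG R i j) (fun l x => sg K l x ^ 2) := by
  obtain ⟨C, hC, h1, h2, h3⟩ := (R.nk i j).ker R.ts R.ts'
  have hσ : H201.Dom F V (sg K) (fun l x => sg K l x ^ 2) := H201.Dom.self (fr_sg K)
  have hH : H201.Dom F V (fun l x => R.H (sq' K x) i j - R.H (sq K l) i j)
      (fun l x => sg K l x ^ 2) := by
    refine ⟨(FR.right (fun x => R.H (sq' K x) i j)).sub (FR.left (fun l => R.H (sq K l) i j)),
      C + 1, by positivity, ?_⟩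
    refine (SosF.add h1 (SosF.sq (fr_sg K))).congr' fun l x => ?_
    show (C + 1) * sg K l x ^ 2 - (R.H (sq' K x) i j - R.H (sq K l) i j) ^ 2 =
      C * sg K l x ^ 2 - (R.H (sq' K x) i j - R.H (sq K l) i j) ^ 2 + sg K l x ^ 2
    ring
  have gs' : GermFR F V (fun (_ : L) x => sq' K x) 0 := GermFR.right R.ts'
  have gs : GermFR F V (fun l (_ : X) => sq K l) 0 := GermFR.left R.ts
  have gH : GermFR F V (fun l (_ : X) => R.H (sq K l) i j) (R.H 0 i j) := GermFR.left (tH R i j)
  refine (((hσ.smul (R.A1 i j)).add (hH.germ (gs'.mul gs'))).add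
    (hσ.germ ((gs'.add gs).mul gH))).congr' fun l x => ?_
  unfold dG
  rw [GG_apply, GG_apply]
  unfold sg
  ring

theorem bd_ddG (R : KRepZ (ε ⊕ ν) F V S K) (i j : ε ⊕ ν) :
    Bd F V (ddG R i j) (fun l x => sg K l x ^ 2) := by
  obtain ⟨C, hC, h1, h2, h3⟩ := (R.nk i j).ker R.ts R.ts'
  have hQ : SosF F V (fun l x => sg K l x ^ 2) := SosF.sq (fr_sg K)
  have hH : Bd F V (fun l x => R.H (sq' K x) i j - R.H (sq K l) i j -
      sg K l x * R.DH (sq K l) i j) (fun l x => sg K l x ^ 2) := by
    refine ⟨C, hC, h2, h3.congr' fun l x => ?_⟩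
    show C * sg K l x ^ 2 + (R.H (sq' K x) i j - R.H (sq K l) i j -
      sg K l x * R.DH (sq K l) i j) = C * sg K l x ^ 2 - -(R.H (sq' K x) i j -
      R.H (sq K l) i j - sg K l x * R.DH (sq K l) i j)
    ring
  have hσ : Bd F V (fun l x => sg K l x ^ 2) (fun l x => sg K l x ^ 2) :=
    ⟨1, zero_le_one, SosF.zero.congr' fun l x => by ring,
      (hQ.smul (c := 2) (by norm_num)).congr' fun l x => by ring⟩
  have bs' : ∀ᶠ x in V, |sq' K x| ≤ 1 := by
    have := R.ts'.abs
    rw [abs_zero] at this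
    exact (this.eventually_lt_const one_pos).mono fun _ h => h.le
  have bs : ∀ᶠ l in F, |sq K l| ≤ 1 := by
    have := R.ts.abs
    rw [abs_zero] at this
    exact (this.eventually_lt_const one_pos).mono fun _ h => h.le
  have bH : ∀ᶠ l in F, |R.H (sq K l) i j| ≤ |R.H 0 i j| + 1 :=
    ((tH R i j).abs.eventually_lt_const (lt_add_one _)).mono fun _ h => h.le
  have bDH : ∀ᶠ l in F, |R.DH (sq K l) i j| ≤ |R.DH 0 i j| + 1 :=
    ((tDH R i j).abs.eventually_lt_const (lt_add_one _)).mono fun _ h => h.le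
  refine (((((hH.right hQ bs').right hQ bs').add ((hσ.right hQ bs').left hQ bDH)).add
    ((hσ.left hQ bs).left hQ bDH)).add (hσ.left hQ bH)).congr' fun l x => ?_
  unfold ddG
  rw [GG_apply, GG_apply, DGs_apply]
  unfold sg
  ring

theorem ddG_EE (R : KRepZ (ε ⊕ ν) F V S K) {D' : Matrix ν ν ℝ}
    (hD : R.D = Matrix.fromBlocks 0 0 0 D') (i j : ε) :
    ∀ᶠ l in F, ∀ x, ddG R (Sum.inl i) (Sum.inl j) l x = 0 := by
  have h1 : ∀ᶠ s in 𝓝 (0 : ℝ), R.DH s (Sum.inl i) (Sum.inl j) = 0 := by
    filter_upwards [(R.nk (Sum.inl i) (Sum.inl j)).der] with s hs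
    have h2 : (fun s => R.H s (Sum.inl i) (Sum.inl j)) = fun _ => (0 : ℝ) := by
      funext s; exact H_EE hD s i j
    rw [h2] at hs
    exact hs.unique (hasDerivAt_const s (0 : ℝ))
  filter_upwards [R.ts.eventually h1] with l hl x
  unfold ddG
  rw [GG_apply, GG_apply, DGs_apply, H_EE hD, H_EE hD]
  have hl' : R.DH (sq K l) (Sum.inl i) (Sum.inl j) = 0 := hl
  rw [hl']
  unfold sg
  ring

end Diff

end Vale.Agent.P256.H985
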