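import Vale.Agent.P256.MathlibUsed
import Mathlib.Analysis.Matrix.Order
import Mathlib.Analysis.Asymptotics.Lemmas
import Mathlib.Tactic

/-! Case (C) of the local theorem for `n = 4` (section 4 of the plan): the one-sided part.
Everything is about real symmetric matrices `A0 + s A1` and quadratic forms. -/

set_option linter.all false

namespace Vale.Agent.P256.H985

open Filter Topology Matrix Asymptotics

section Basic

variable {ι κ : Type*} [Fintype ι] [Fintype κ]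

/-- the quadratic form of a matrix -/
def qf (A : Matrix ι ι ℝ) (v : ι → ℝ) : ℝ := v ⬝ᵥ (A *ᵥ v)

theorem dot_eq (A : Matrix ι ι ℝ) (u v : ι → ℝ) :
    u ⬝ᵥ (A *ᵥ v) = ∑ i, ∑ j, A i j * u i * v j := by
  simp only [dotProduct, Matrix.mulVec, Finset.mul_sum]
  refine Finset.sum_congr rfl fun i _ => Finset.sum_congr rfl fun j _ => ?_
  ring

theorem dot_swap {A : Matrix ι ι ℝ} (h : A.IsHermitian) (u v : ι → ℝ) :
    u ⬝ᵥ (A *ᵥ v) = v ⬝ᵥ (A *ᵥ u) := by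
  rw [dot_eq, dot_eq, Finset.sum_comm]
  refine Finset.sum_congr rfl fun i _ => Finset.sum_congr rfl fun j _ => ?_
  have : A j i = A i j := by
    have := congrFun (congrFun h i) j
    simpa using this
  rw [this]; ring

theorem qf_sub_smul {A : Matrix ι ι ℝ} (h : A.IsHermitian) (v u : ι → ℝ) (t : ℝ) :
    qf A (v - t • u) = qf A v - 2 * t * (u ⬝ᵥ (A *ᵥ v)) + t ^ 2 * qf A u := by
  unfold qf
  rw [Matrix.mulVec_sub, Matrix.mulVec_smul, sub_dotProduct, dotProduct_sub, dotProduct_sub,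
    smul_dotProduct, smul_dotProduct, dotProduct_smul, dotProduct_smul, dot_swap h v u]
  simp only [smul_eq_mul]
  ring

theorem qf_smul (A : Matrix ι ι ℝ) (t : ℝ) (v : ι → ℝ) : qf A (t • v) = t ^ 2 * qf A v := by
  unfold qf
  rw [Matrix.mulVec_smul, dotProduct_smul, smul_dotProduct]
  simp only [smul_eq_mul]; ring

theorem continuous_qf (A : Matrix ι ι ℝ) : Continuous (qf A) := by
  have : qf A = fun v => ∑ i, ∑ j, A i j * v i * v j := by
    funext v; exact dot_eq A v v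
  rw [this]
  fun_prop

theorem dot_self_pos {v : ι → ℝ} (hv : v ≠ 0) : 0 < v ⬝ᵥ v := by
  obtain ⟨i, hi⟩ := Function.ne_iff.1 hv
  have h1 : v i * v i ≤ v ⬝ᵥ v :=
    Finset.single_le_sum (f := fun j => v j * v j) (fun j _ => mul_self_nonneg _)
      (Finset.mem_univ i)
  have h2 : 0 < v i * v i := mul_self_pos.2 (by simpa using hi)
  linarith

theorem dot_self_nonneg (v : ι → ℝ) : 0 ≤ v ⬝ᵥ v :=
  Finset.sum_nonneg fun i _ => mul_self_nonneg _

theorem psd_qf {A : Matrix ι ι ℝ} (h : A.PosSemidef) (v : ι → ℝ) : 0 ≤ qf A v := by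
  have := h.dotProduct_mulVec_nonneg v
  simpa [qf] using this

/-- a psd form vanishes only on the kernel -/
theorem psd_ker {A : Matrix ι ι ℝ} (h : A.PosSemidef) {v : ι → ℝ} (hv : qf A v = 0) :
    A *ᵥ v = 0 := by
  have h1 : star v ⬝ᵥ (A *ᵥ v) = 0 := by simpa [qf] using hv
  exact (h.dotProduct_mulVec_zero_iff v).1 h1

theorem qf_add_of_ker {A : Matrix ι ι ℝ} (h : A.IsHermitian) {k : ι → ℝ} (hk : A *ᵥ k = 0)
    (w : ι → ℝ) : qf A (k + w) = qf A w := by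
  unfold qf
  rw [Matrix.mulVec_add, hk, zero_add, add_dotProduct, dot_swap h k w, hk]
  simp

end Basic

section Forms

variable {ι : Type*} [Fintype ι] [DecidableEq ι] {A0 A1 : Matrix ι ι ℝ}

/-- **C1** -/
theorem c1 {L : Type*} {F : Filter L} [F.NeBot] {r s : L → ℝ} (hs : ∀ᶠ l in F, 0 < s l)
    (hr : Tendsto (fun l => r l / s l) F (𝓝 0))
    (hpsd : ∀ᶠ l in F, ∀ v, 0 ≤ r l * (v ⬝ᵥ v) + qf A0 v + s l * qf A1 v)
    {v : ι → ℝ} (hv : A0 *ᵥ v = 0) : 0 ≤ qf A1 v := by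
  have h1 : ∀ᶠ l in F, 0 ≤ r l / s l * (v ⬝ᵥ v) + qf A1 v := by
    filter_upwards [hs, hpsd] with l h1 h2
    have h3 := h2 v
    have h4 : qf A0 v = 0 := by unfold qf; rw [hv]; simp
    rw [h4, add_zero] at h3
    have h5 : r l / s l * (v ⬝ᵥ v) + qf A1 v = (r l * (v ⬝ᵥ v) + s l * qf A1 v) / s l := by
      field_simp
    rw [h5]
    exact div_nonneg h3 h1.le
  have h2 : Tendsto (fun l => r l / s l * (v ⬝ᵥ v) + qf A1 v) F (𝓝 (0 * (v ⬝ᵥ v) + qf A1 v)) :=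
    (hr.mul_const _).add_const _
  have h3 := ge_of_tendsto h2 h1
  simpa using h3

/-- **C2** -/
theorem c2 (h0 : A0.PosSemidef) (h1 : A1.IsHermitian)
    (hW : ∀ v, A0 *ᵥ v = 0 → 0 ≤ qf A1 v)
    (hno : ∀ s : ℝ, 0 < s → ∃ v, qf A0 v + s * qf A1 v < 0) :
    ∃ v, A0 *ᵥ v = 0 ∧ qf A1 v = 0 ∧ A1 *ᵥ v ≠ 0 := by
  by_contra hcon
  push Not at hcon
  set K0 : Submodule ℝ (ι → ℝ) := LinearMap.ker A0.mulVecLin ⊓ LinearMap.ker A1.mulVecLin
    with hK0
  obtain ⟨K', hK'⟩ := Submodule.exists_isCompl K0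
  have hsplit : ∀ v : ι → ℝ, ∃ w ∈ K', qf A0 v = qf A0 w ∧ qf A1 v = qf A1 w := by
    intro v
    have : v ∈ K0 ⊔ K' := by rw [hK'.sup_eq_top]; exact Submodule.mem_top
    obtain ⟨k, hk, w, hw, rfl⟩ := Submodule.mem_sup.1 this
    have hk0 : A0 *ᵥ k = 0 := by
      have := (Submodule.mem_inf.1 hk).1
      simpa using this
    have hk1 : A1 *ᵥ k = 0 := by
      have := (Submodule.mem_inf.1 hk).2
      simpa using this
    exact ⟨w, hw, qf_add_of_ker h0.1 hk0 w, qf_add_of_ker h1 hk1 w⟩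
  have hseq : ∀ n : ℕ, ∃ w ∈ K', ‖w‖ = 1 ∧ qf A0 w + 1 / ((n : ℝ) + 1) * qf A1 w < 0 := by
    intro n
    obtain ⟨v, hv⟩ := hno (1 / ((n : ℝ) + 1)) (by positivity)
    obtain ⟨w, hw, e0, e1⟩ := hsplit v
    rw [e0, e1] at hv
    have hw0 : w ≠ 0 := by
      rintro rfl
      have h2 : ∀ A : Matrix ι ι ℝ, qf A 0 = 0 := fun A => by simp [qf]
      rw [h2, h2] at hv
      simp at hv
    have hn : 0 < ‖w‖ := norm_pos_iff.2 hw0
    refine ⟨‖w‖⁻¹ • w, K'.smul_mem _ hw, ?_, ?_⟩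
    · rw [norm_smul, norm_inv, norm_norm, inv_mul_cancel₀ hn.ne']
    · rw [qf_smul, qf_smul]
      have h3 : ‖w‖⁻¹ ^ 2 * qf A0 w + 1 / ((n : ℝ) + 1) * (‖w‖⁻¹ ^ 2 * qf A1 w) =
          ‖w‖⁻¹ ^ 2 * (qf A0 w + 1 / ((n : ℝ) + 1) * qf A1 w) := by ring
      rw [h3]
      exact mul_neg_of_pos_of_neg (by positivity) hv
  choose w hwK hw1 hw2 using hseq
  have hcomp : IsCompact (Metric.sphere (0 : ι → ℝ) 1) := isCompact_sphere _ _
  obtain ⟨v, hv, φ, hφ, hlim⟩ := hcomp.tendsto_subseq (x := w) (fun n => by simpa using hw1 n)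
  have hvK : v ∈ K' := by
    have hcl : IsClosed (K' : Set (ι → ℝ)) := K'.closed_of_finiteDimensional
    exact hcl.mem_of_tendsto hlim (Eventually.of_forall fun n => hwK _)
  have t0 : Tendsto (fun n => qf A0 (w (φ n))) atTop (𝓝 (qf A0 v)) :=
    ((continuous_qf A0).tendsto v).comp hlim
  have t1 : Tendsto (fun n => qf A1 (w (φ n))) atTop (𝓝 (qf A1 v)) :=
    ((continuous_qf A1).tendsto v).comp hlim
  have tn : Tendsto (fun n => 1 / ((φ n : ℝ) + 1)) atTop (𝓝 0) :=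
    tendsto_one_div_add_atTop_nhds_zero_nat.comp hφ.tendsto_atTop
  have hA0 : qf A0 v = 0 := by
    have h3 : qf A0 v ≤ 0 := by
      have h4 : Tendsto (fun n => qf A0 (w (φ n)) + 1 / ((φ n : ℝ) + 1) * qf A1 (w (φ n))) atTop
          (𝓝 (qf A0 v + 0 * qf A1 v)) := t0.add (tn.mul t1)
      have h5 := le_of_tendsto h4 (Eventually.of_forall fun n => (hw2 (φ n)).le)
      simpa using h5
    exact le_antisymm h3 (psd_qf h0 v)
  have hker := psd_ker h0 hA0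
  have hA1 : qf A1 v = 0 := by
    have h3 : qf A1 v ≤ 0 := by
      refine le_of_tendsto t1 (Eventually.of_forall fun n => ?_)
      have h4 := hw2 (φ n)
      have h5 := psd_qf h0 (w (φ n))
      have h6 : (0 : ℝ) < 1 / ((φ n : ℝ) + 1) := by positivity
      by_contra h7
      push Not at h7
      have := mul_pos h6 h7
      linarith
    exact le_antisymm h3 (hW v hker)
  have h3 := hcon v hker hA1
  have hv0 : v ∈ K0 := by
    rw [hK0, Submodule.mem_inf]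
    exact ⟨by simpa using hker, by simpa using h3⟩
  have : v ∈ K0 ⊓ K' := ⟨hv0, hvK⟩
  rw [hK'.inf_eq_bot] at this
  have h8 : v = 0 := by simpa using this
  rw [h8] at hv
  simp at hv

/-- **C3** -/
theorem c3 (h0 : A0.IsHermitian) (h1 : A1.IsHermitian) {v : ι → ℝ} (hv : A0 *ᵥ v = 0)
    (hv1 : qf A1 v = 0) (hne : A1 *ᵥ v ≠ 0) :
    ∃ c > 0, ∃ δ > 0, ∀ s r : ℝ, |s| < δ →
      (∀ u, 0 ≤ r * (u ⬝ᵥ u) + qf A0 u + s * qf A1 u) → c * s ^ 2 ≤ r := by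
  set m := A1 *ᵥ v with hm
  have hmm : 0 < m ⬝ᵥ m := dot_self_pos hne
  set τ : ℝ := m ⬝ᵥ m / (1 + |qf A0 m|) with hτ
  have hden : 0 < 1 + |qf A0 m| := by positivity
  have hτpos : 0 < τ := div_pos hmm hden
  have hτ1 : τ * qf A0 m ≤ m ⬝ᵥ m := by
    have h2 : τ * (1 + |qf A0 m|) = m ⬝ᵥ m := div_mul_cancel₀ _ hden.ne'
    nlinarith [le_abs_self (qf A0 m), abs_nonneg (qf A0 m)]
  -- the form at `v - s τ m`
  set K : ℝ := |τ ^ 2 * qf A1 m| with hK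
  set N : ℝ := v ⬝ᵥ v + 2 * |τ * (m ⬝ᵥ v)| + τ ^ 2 * (m ⬝ᵥ m) + 1 with hN
  have hvv := dot_self_nonneg v
  have hNpos : 0 < N := by positivity
  refine ⟨τ * (m ⬝ᵥ m) / (2 * N), by positivity, min 1 (τ * (m ⬝ᵥ m) / (2 * (K + 1))),
    lt_min one_pos (by positivity), fun s r hs hpsd => ?_⟩
  have hs1 : |s| < 1 := hs.trans_le (min_le_left _ _)
  have hs2 : |s| < τ * (m ⬝ᵥ m) / (2 * (K + 1)) := hs.trans_le (min_le_right _ _)
  have hs3 : |s| * (2 * (K + 1)) < τ * (m ⬝ᵥ m) := by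
    rwa [lt_div_iff₀ (by positivity)] at hs2
  have h2 := hpsd (v - (s * τ) • m)
  have e0 : qf A0 (v - (s * τ) • m) = (s * τ) ^ 2 * qf A0 m := by
    rw [qf_sub_smul h0, hv]
    have : qf A0 v = 0 := by unfold qf; rw [hv]; simp
    rw [this]; simp
  have e1 : qf A1 (v - (s * τ) • m) = -2 * (s * τ) * (m ⬝ᵥ m) + (s * τ) ^ 2 * qf A1 m := by
    rw [qf_sub_smul h1, hv1, ← hm]
    ring
  have e2 : (v - (s * τ) • m) ⬝ᵥ (v - (s * τ) • m) =
      v ⬝ᵥ v - 2 * (s * τ) * (m ⬝ᵥ v) + (s * τ) ^ 2 * (m ⬝ᵥ m) := by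
    rw [sub_dotProduct, dotProduct_sub, dotProduct_sub, smul_dotProduct, smul_dotProduct,
      dotProduct_smul, dotProduct_smul, dotProduct_comm v m]
    simp only [smul_eq_mul]; ring
  rw [e0, e1] at h2
  have hle : (v - (s * τ) • m) ⬝ᵥ (v - (s * τ) • m) ≤ N := by
    rw [e2, hN]
    have a1 : -(2 * (s * τ) * (m ⬝ᵥ v)) ≤ 2 * |τ * (m ⬝ᵥ v)| := by
      have : -(2 * (s * τ) * (m ⬝ᵥ v)) ≤ |2 * (s * τ) * (m ⬝ᵥ v)| := neg_le_abs _
      have h5 : |2 * (s * τ) * (m ⬝ᵥ v)| = 2 * (|s| * |τ * (m ⬝ᵥ v)|) := by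
        rw [← abs_mul, show 2 * (s * τ) * (m ⬝ᵥ v) = 2 * (s * (τ * (m ⬝ᵥ v))) by ring, abs_mul]
        norm_num
      have h6 : |s| * |τ * (m ⬝ᵥ v)| ≤ 1 * |τ * (m ⬝ᵥ v)| :=
        mul_le_mul_of_nonneg_right hs1.le (abs_nonneg _)
      linarith
    have a2 : (s * τ) ^ 2 * (m ⬝ᵥ m) ≤ τ ^ 2 * (m ⬝ᵥ m) := by
      have : s ^ 2 ≤ 1 := by
        rw [← sq_abs]; nlinarith [abs_nonneg s]
      have h7 : (s * τ) ^ 2 = s ^ 2 * τ ^ 2 := by ring
      rw [h7]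
      nlinarith [mul_nonneg (sq_nonneg τ) hmm.le]
    linarith
  have hlow : τ * (m ⬝ᵥ m) / 2 * s ^ 2 ≤ r * ((v - (s * τ) • m) ⬝ᵥ (v - (s * τ) • m)) := by
    have a1 : s ^ 2 * (τ * (τ * qf A0 m)) ≤ s ^ 2 * (τ * (m ⬝ᵥ m)) :=
      mul_le_mul_of_nonneg_left (mul_le_mul_of_nonneg_left hτ1 hτpos.le) (sq_nonneg s)
    have a2 : s * ((s * τ) ^ 2 * qf A1 m) ≤ s ^ 2 * (|s| * K) := by
      have : s * ((s * τ) ^ 2 * qf A1 m) = s ^ 2 * (s * (τ ^ 2 * qf A1 m)) := by ring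
      rw [this]
      refine mul_le_mul_of_nonneg_left ?_ (sq_nonneg s)
      calc s * (τ ^ 2 * qf A1 m) ≤ |s * (τ ^ 2 * qf A1 m)| := le_abs_self _
        _ = |s| * K := by rw [abs_mul]
    have a3 : |s| * K ≤ τ * (m ⬝ᵥ m) / 2 := by
      have := abs_nonneg s
      linarith
    have a4 : s ^ 2 * (|s| * K) ≤ s ^ 2 * (τ * (m ⬝ᵥ m) / 2) :=
      mul_le_mul_of_nonneg_left a3 (sq_nonneg s)
    have e3 : r * ((v - (s * τ) • m) ⬝ᵥ (v - (s * τ) • m)) + (s * τ) ^ 2 * qf A0 m +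
        s * (-2 * (s * τ) * (m ⬝ᵥ m) + (s * τ) ^ 2 * qf A1 m) =
        r * ((v - (s * τ) • m) ⬝ᵥ (v - (s * τ) • m)) + s ^ 2 * (τ * (τ * qf A0 m)) -
        2 * (s ^ 2 * (τ * (m ⬝ᵥ m))) + s * ((s * τ) ^ 2 * qf A1 m) := by ring
    rw [e3] at h2
    have e4 : s ^ 2 * (τ * (m ⬝ᵥ m) / 2) = s ^ 2 * (τ * (m ⬝ᵥ m)) / 2 := by ring
    have e5 : τ * (m ⬝ᵥ m) / 2 * s ^ 2 = s ^ 2 * (τ * (m ⬝ᵥ m)) / 2 := by ring
    rw [e4] at a4
    rw [e5]
    linarith
  have hP := dot_self_nonneg (v - (s * τ) • m)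
  have hpos : 0 ≤ τ * (m ⬝ᵥ m) / 2 * s ^ 2 := by positivity
  rcases eq_or_ne s 0 with hs0 | hs0
  · subst hs0
    have h11 := hpsd v
    have h12 : qf A0 v = 0 := by unfold qf; rw [hv]; simp
    have hv0 : v ≠ 0 := by
      intro h16
      apply hne
      rw [hm, h16, Matrix.mulVec_zero]
    have h13 := dot_self_pos hv0
    rw [h12, zero_mul, add_zero, add_zero] at h11
    have h14 : 0 ≤ r := by
      by_contra h15
      push Not at h15
      have := mul_neg_of_neg_of_pos h15 h13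
      linarith
    simpa using h14
  · have hs2' : 0 < s ^ 2 := by positivity
    have h10 : 0 < τ * (m ⬝ᵥ m) / 2 * s ^ 2 := by positivity
    have hr : 0 < r := by
      by_contra h15
      push Not at h15
      have := mul_nonpos_of_nonpos_of_nonneg h15 hP
      linarith
    have h8 : r * ((v - (s * τ) • m) ⬝ᵥ (v - (s * τ) • m)) ≤ r * N :=
      mul_le_mul_of_nonneg_left hle hr.le
    rw [div_mul_eq_mul_div, div_le_iff₀ (by positivity)]
    have e6 : τ * (m ⬝ᵥ m) * s ^ 2 = 2 * (τ * (m ⬝ᵥ m) / 2 * s ^ 2) := by ring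
    rw [e6]
    have e7 : r * (2 * N) = 2 * (r * N) := by ring
    rw [e7]
    linarith

/-- **C4** -/
theorem c4 (h0 : A0.PosSemidef) (h1 : A1.IsHermitian)
    (hW : ∀ v, A0 *ᵥ v = 0 → 0 ≤ qf A1 v) {v : ι → ℝ} (hv : A0 *ᵥ v = 0)
    (hv1 : qf A1 v = 0) (hne : A1 *ᵥ v ≠ 0) {h a : ℝ}
    (hp : ∀ u, 0 ≤ h * qf A0 u + a * qf A1 u) : a = 0 ∧ 0 ≤ h := by
  obtain ⟨c, hc, δ, hδ, H⟩ := c3 h0.1 h1 hv hv1 hne
  have ha : a = 0 := by
    by_contra ha
    set lam : ℝ := |h| + |a| / δ + 1 with hlam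
    have hl : 0 < h + lam := by
      have := neg_abs_le h
      have h3 : 0 ≤ |a| / δ := by positivity
      rw [hlam]; linarith
    have hl2 : |a| / δ < h + lam := by
      have := neg_abs_le h
      rw [hlam]; linarith
    have h3 := H (a / (h + lam)) 0 (by
      rw [abs_div, abs_of_pos hl, div_lt_iff₀ hl]
      rw [div_lt_iff₀ hδ] at hl2
      linarith) (by
      intro u
      have h4 := hp u
      have h5 := psd_qf h0 u
      have h6 : 0 ≤ lam := by positivity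
      have h7 : 0 * (u ⬝ᵥ u) + qf A0 u + a / (h + lam) * qf A1 u =
          ((h + lam) * qf A0 u + a * qf A1 u) / (h + lam) := by
        field_simp
        ring
      rw [h7]
      refine div_nonneg ?_ hl.le
      nlinarith [mul_nonneg h6 h5])
    have h8 : 0 < (a / (h + lam)) ^ 2 := by
      have : a / (h + lam) ≠ 0 := div_ne_zero ha hl.ne'
      positivity
    nlinarith
  refine ⟨ha, ?_⟩
  by_contra hh
  push Not at hh
  subst ha
  -- A0 = 0 as a form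
  have hz : ∀ u, A0 *ᵥ u = 0 := by
    intro u
    apply psd_ker h0
    have h3 := hp u
    have h4 := psd_qf h0 u
    have h5 : h * qf A0 u ≤ 0 := mul_nonpos_of_nonpos_of_nonneg hh.le h4
    have h6 : h * qf A0 u = 0 := by linarith
    rcases mul_eq_zero.1 h6 with h7 | h7
    · exact absurd h7 hh.ne
    · exact h7
  set m := A1 *ᵥ v with hm
  have hmm : 0 < m ⬝ᵥ m := dot_self_pos hne
  set τ : ℝ := m ⬝ᵥ m / (1 + |qf A1 m|) with hτ
  have hden : 0 < 1 + |qf A1 m| := by positivity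
  have hτpos : 0 < τ := div_pos hmm hden
  have h3 := hW (v - τ • m) (hz _)
  rw [qf_sub_smul h1, hv1, ← hm] at h3
  have h2 : τ * (1 + |qf A1 m|) = m ⬝ᵥ m := div_mul_cancel₀ _ hden.ne'
  have h4 : τ * qf A1 m ≤ m ⬝ᵥ m := by
    nlinarith [le_abs_self (qf A1 m), abs_nonneg (qf A1 m)]
  nlinarith

end Forms

end Vale.Agent.P256.H985
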